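import Mathlib

/-!
# P064: definitions
-/

namespace Vale.P064

/-- The expectation of `f` over the random graph `G(n,p)`: each graph `G` on `Fin n` with `e(G)`
edges has probability `p ^ e(G) * (1 - p) ^ (n.choose 2 - e(G))`. -/
noncomputable def gnpMean (n : ℕ) (p : ℝ) (f : SimpleGraph (Fin n) → ℝ) : ℝ :=
  ∑ G : SimpleGraph (Fin n),
    p ^ G.edgeSet.ncard * (1 - p) ^ (n.choose 2 - G.edgeSet.ncard) * f G

/-- The critical probability `p_c(n,H)`: the least `p ∈ [0,1]` with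
`Pr(N(G(n,p),H) > 0) ≥ 1/2`. Here `G.copyCount H` is the number `N(G,H)` of subgraphs of `G`
isomorphic to `H`. -/
noncomputable def pc (n : ℕ) {V : Type*} (H : SimpleGraph V) : ℝ :=
  sInf {p : ℝ | 0 ≤ p ∧ p ≤ 1 ∧
    1 / 2 ≤ gnpMean n p (fun G => if 0 < G.copyCount H then 1 else 0)}

/-- The expectation threshold `p_E(n,H)`: the least `p ∈ [0,1]` with
`E N(G(n,p),F) ≥ 1/2` for every subgraph `F` of `H`. -/
noncomputable def pE (n : ℕ) {V : Type*} (H : SimpleGraph V) : ℝ :=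
  sInf {p : ℝ | 0 ≤ p ∧ p ≤ 1 ∧ ∀ F : H.Subgraph,
    1 / 2 ≤ gnpMean n p (fun G => (G.copyCount F.coe : ℝ))}

/-- The modified threshold: the least `p ∈ [0,1]` with
`E N(G(n,p),F) ≥ N(H,F)/2` for every subgraph `F` of `H`. -/
noncomputable def pEt (n : ℕ) {V : Type*} [Fintype V] (H : SimpleGraph V) : ℝ :=
  sInf {p : ℝ | 0 ≤ p ∧ p ≤ 1 ∧ ∀ F : H.Subgraph,
    (H.copyCount F.coe : ℝ) / 2 ≤ gnpMean n p (fun G => (G.copyCount F.coe : ℝ))}

end Vale.P064
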