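import Mathlib

/-!
# P064, numerical part
The function `g u = u - √u + 1` and the inequality driving the induction.
-/

namespace Vale.P064

open Real

/-- The comparison function. -/
noncomputable def gf (u : ℝ) : ℝ := u - √u + 1

lemma gf_one_le {u : ℝ} (hu : 1 ≤ u) : 1 ≤ gf u := by
  unfold gf
  have h1 : √u ≤ u := by
    rw [Real.sqrt_le_left (by linarith)]
    nlinarith
  linarith

lemma gf_le {u : ℝ} (hu : 1 ≤ u) : gf u ≤ u := by
  unfold gf
  have : 1 ≤ √u := by
    rw [Real.one_le_sqrt]; exact hu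
  linarith

lemma gf_strictMono {u v : ℝ} (hu : 1 ≤ u) (huv : u < v) : gf u < gf v := by
  unfold gf
  have h0 : 0 ≤ u := by linarith
  have h0' : 0 ≤ v := by linarith
  have h1 : 1 ≤ √u := by
    rw [Real.one_le_sqrt]; exact hu
  have h2 : √u < √v := Real.sqrt_lt_sqrt h0 huv
  have h3 : √u * √u = u := Real.mul_self_sqrt h0
  have h4 : √v * √v = v := Real.mul_self_sqrt h0'
  nlinarith

lemma gf_mono {u v : ℝ} (hu : 1 ≤ u) (huv : u ≤ v) : gf u ≤ gf v := by
  rcases huv.lt_or_eq with h | h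
  · exact (gf_strictMono hu h).le
  · rw [h]

lemma gf_add_le {u δ : ℝ} (hδ : 0 ≤ δ) : gf (u + δ) ≤ gf u + δ := by
  unfold gf
  have : √u ≤ √(u + δ) := Real.sqrt_le_sqrt (by linarith)
  linarith

/-- The key numerical inequality. -/
lemma key_numeric {L : ℝ} (hL : (256 : ℝ) ^ 4 ≤ L) :
    (gf (L - √L) + gf (1 + √L + 2 * Real.log L)) * Real.exp (1 / L ^ 2) ≤ gf L := by
  have hL0 : 0 < L := by linarith [show (0:ℝ) < 256 ^ 4 by norm_num]
  have hL1 : 1 ≤ L := by linarith [show (1:ℝ) ≤ 256 ^ 4 by norm_num]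
  set s := √L with hs
  have hs2 : s * s = L := Real.mul_self_sqrt hL0.le
  have hs_big : (256 : ℝ) ^ 2 ≤ s := by
    rw [hs]
    apply Real.le_sqrt_of_sq_le
    calc ((256 : ℝ) ^ 2) ^ 2 = 256 ^ 4 := by norm_num
      _ ≤ L := hL
  have hs0 : 0 < s := by linarith [show (0:ℝ) < 256 ^ 2 by norm_num]
  set x := √s with hx
  have hx2 : x * x = s := Real.mul_self_sqrt hs0.le
  have hx_big : (256 : ℝ) ≤ x := by
    rw [hx]
    apply Real.le_sqrt_of_sq_le
    exact hs_big
  have hx0 : 0 < x := by linarith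
  -- log bound
  set y := √x with hy
  have hy2 : y * y = x := Real.mul_self_sqrt hx0.le
  have hy_big : (16 : ℝ) ≤ y := by
    rw [hy]
    apply Real.le_sqrt_of_sq_le
    linarith [show ((16:ℝ))^2 = 256 by norm_num]
  have hy0 : 0 < y := by linarith
  have hlog : Real.log L ≤ 8 * (y - 1) := by
    have h1 : L = y ^ 8 := by
      rw [← hs2, ← hx2, ← hy2]; ring
    rw [h1, Real.log_pow]
    have := Real.log_le_sub_one_of_pos hy0
    push_cast
    linarith
  have hlog0 : 0 ≤ Real.log L := Real.log_nonneg hL1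
  -- bounds for g
  have hA : gf (L - s) ≤ L - 2 * s + 2 := by
    unfold gf
    have : s - 1 ≤ √(L - s) := by
      apply Real.le_sqrt_of_sq_le
      nlinarith
    linarith
  have hB : gf (1 + s + 2 * Real.log L) ≤ 2 + s + 2 * Real.log L - x := by
    unfold gf
    have : x ≤ √(1 + s + 2 * Real.log L) := by
      rw [hx]
      apply Real.sqrt_le_sqrt
      linarith
    linarith
  set SS := L - s + 4 + 2 * Real.log L - x with hSS
  have hsum : gf (L - s) + gf (1 + s + 2 * Real.log L) ≤ SS := by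
    rw [hSS]; linarith
  have hkey : 2 * Real.log L + 4 ≤ x := by
    nlinarith
  have hSSle : SS ≤ L - s := by rw [hSS]; linarith
  have hexp : Real.exp (1 / L ^ 2) ≤ 1 + 1 / L := by
    have h1 : 1 / L ^ 2 ≤ 1 / 2 := by
      apply one_div_le_one_div_of_le (by norm_num)
      nlinarith [show (2:ℝ) ≤ 256 ^ 4 by norm_num]
    have h0 : 0 ≤ 1 / L ^ 2 := by positivity
    have h2 : Real.exp (1 / L ^ 2) ≤ 1 + 2 * (1 / L ^ 2) := by
      have := Real.abs_exp_sub_one_le (x := 1 / L ^ 2) (by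
        rw [abs_of_nonneg h0]; linarith)
      rw [abs_of_nonneg h0] at this
      have := (abs_le.1 this).2
      linarith
    have h3 : 2 * (1 / L ^ 2) ≤ 1 / L := by
      have : 2 * (1 / L ^ 2) = (2 / L) * (1 / L) := by
        field_simp
      rw [this]
      have h4 : 2 / L ≤ 1 := by
        rw [div_le_one hL0]
        linarith [show (2:ℝ) ≤ 256 ^ 4 by norm_num]
      have h5 : 0 ≤ 1 / L := by positivity
      nlinarith
    linarith
  have hLs : 0 ≤ L - s := by nlinarith
  calc (gf (L - s) + gf (1 + s + 2 * Real.log L)) * Real.exp (1 / L ^ 2)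
      ≤ (L - s) * Real.exp (1 / L ^ 2) := by
        apply mul_le_mul_of_nonneg_right (hsum.trans hSSle) (Real.exp_pos _).le
    _ ≤ (L - s) * (1 + 1 / L) := mul_le_mul_of_nonneg_left hexp hLs
    _ = L - s + (L - s) / L := by ring
    _ ≤ L - s + 1 := by
        have : (L - s) / L ≤ 1 := by
          rw [div_le_one hL0]; linarith
        linarith
    _ = gf L := by unfold gf; rw [← hs]

/-- `(c/r)^r ≤ e^c`. -/
lemma div_pow_le_exp {c : ℝ} (hc : 0 ≤ c) {r : ℕ} (hr : 0 < r) :
    (c / r) ^ r ≤ Real.exp c := by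
  have hr' : (0:ℝ) < r := by exact_mod_cast hr
  have h1 : c / r ≤ Real.exp (c / r) := by
    have := Real.add_one_le_exp (c / r)
    linarith
  calc (c / r) ^ r ≤ (Real.exp (c / r)) ^ r :=
        pow_le_pow_left₀ (by positivity) h1 r
    _ = Real.exp (r * (c / r)) := by rw [← Real.exp_nat_mul]
    _ = Real.exp c := by
        congr 1
        field_simp

/-- `C(t,j) ≤ (e t / j)^j`. -/
lemma choose_le_exp_pow {t j : ℕ} (hj : 0 < j) :
    (t.choose j : ℝ) ≤ (Real.exp 1 * (t / j)) ^ j := by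
  have hj' : (0:ℝ) < j := by exact_mod_cast hj
  have h1 : (t.choose j : ℝ) ≤ (t:ℝ) ^ j / (j.factorial : ℝ) := Nat.choose_le_pow_div j t
  have h2 : (j:ℝ) ^ j / (j.factorial : ℝ) ≤ Real.exp j :=
    Real.pow_div_factorial_le_exp (j:ℝ) hj'.le j
  have hf : (0:ℝ) < (j.factorial : ℝ) := by exact_mod_cast Nat.factorial_pos j
  have h3 : (t:ℝ) ^ j / (j.factorial : ℝ) = ((t:ℝ)/j)^j * ((j:ℝ)^j / (j.factorial : ℝ)) := by
    rw [div_pow]; field_simp
  calc (t.choose j : ℝ) ≤ ((t:ℝ)/j)^j * ((j:ℝ)^j / (j.factorial : ℝ)) := by rw [← h3]; exact h1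
    _ ≤ ((t:ℝ)/j)^j * Real.exp j := by
        apply mul_le_mul_of_nonneg_left h2 (by positivity)
    _ = (Real.exp 1 * (t / j)) ^ j := by
        rw [mul_pow, ← Real.exp_nat_mul]
        rw [mul_one]; ring

end Vale.P064
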