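import Mathlib
import Vale.Agent.P064.Numeric

/-!
# P064, abstract spread theorem for group actions
-/

open Finset Pointwise

namespace Vale.P064

variable {G X : Type*} [Group G] [Fintype G] [MulAction G X] [DecidableEq X]

/-- The proportion of group elements moving `S` into `H`. -/
noncomputable def nu (G : Type*) {X : Type*} [Group G] [Fintype G] [MulAction G X] [DecidableEq X]
    (H S : Finset X) : ℝ :=
  (#{g : G | g • S ⊆ H} : ℝ) / Fintype.card G

/-- The proportion of group elements fixing `S` setwise. -/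
noncomputable def sig (G : Type*) {X : Type*} [Group G] [Fintype G] [MulAction G X] [DecidableEq X]
    (S : Finset X) : ℝ :=
  (#{g : G | g • S = S} : ℝ) / Fintype.card G

/-- `H` is `q`-sparse. -/
def Sparse (G : Type*) {X : Type*} [Group G] [Fintype G] [MulAction G X] [DecidableEq X]
    (q : ℝ) (H : Finset X) : Prop :=
  ∀ S ⊆ H, sig G S ≤ q ^ S.card

lemma cardG_pos : (0 : ℝ) < Fintype.card G := by
  exact_mod_cast Fintype.card_pos (α := G)

lemma nu_nonneg (H S : Finset X) : 0 ≤ nu G H S := by
  unfold nu; positivity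

lemma nu_le_one (H S : Finset X) : nu G H S ≤ 1 := by
  unfold nu
  rw [div_le_one cardG_pos]
  exact_mod_cast Finset.card_le_univ _

@[simp] lemma nu_empty (H : Finset X) : nu G H ∅ = 1 := by
  unfold nu
  have : ({g : G | g • (∅ : Finset X) ⊆ H} : Finset G) = univ := by
    ext g; simp
  rw [this, Finset.card_univ, div_self cardG_pos.ne']

lemma nu_eq_zero_of_card_lt {H S : Finset X} (h : H.card < S.card) : nu G H S = 0 := by
  unfold nu
  have : ({g : G | g • S ⊆ H} : Finset G) = ∅ := by
    ext g
    simp only [mem_filter, mem_univ, true_and, notMem_empty, iff_false]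
    intro hg
    have := Finset.card_le_card hg
    rw [Finset.card_smul_finset] at this
    omega
  rw [this]; simp

lemma exists_of_nu_pos {H S : Finset X} (h : 0 < nu G H S) : ∃ g : G, g • S ⊆ H := by
  by_contra hne
  push Not at hne
  have : ({g : G | g • S ⊆ H} : Finset G) = ∅ := by
    ext g; simp [hne g]
  unfold nu at h
  rw [this] at h
  simp at h

lemma nu_mul_nu (H S T : Finset X) :
    nu G H S * nu G H T = (∑ k : G, nu G H (S ∪ k • T)) / Fintype.card G := by
  have hc := cardG_pos (G := G)
  unfold nu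
  rw [← Finset.sum_div]
  have key : (#{g : G | g • S ⊆ H} : ℝ) * (#{g : G | g • T ⊆ H} : ℝ)
      = ∑ k : G, (#{g : G | g • (S ∪ k • T) ⊆ H} : ℝ) := by
    have e1 : ∀ k : G, (#{g : G | g • (S ∪ k • T) ⊆ H} : ℝ)
        = ∑ g : G, (if g • S ⊆ H then (1:ℝ) else 0) * (if (g * k) • T ⊆ H then 1 else 0) := by
      intro k
      rw [Finset.card_filter]
      push_cast
      refine Finset.sum_congr rfl fun g _ => ?_
      simp only [Finset.smul_finset_union, smul_smul, Finset.union_subset_iff]
      by_cases h1 : g • S ⊆ H <;> by_cases h2 : (g * k) • T ⊆ H <;> simp [h1, h2]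
    simp_rw [e1]
    rw [Finset.sum_comm]
    have e2 : ∀ g : G, ∑ k : G, (if g • S ⊆ H then (1:ℝ) else 0) * (if (g * k) • T ⊆ H then 1 else 0)
        = (if g • S ⊆ H then (1:ℝ) else 0) * (#{g : G | g • T ⊆ H} : ℝ) := by
      intro g
      rw [← Finset.mul_sum]
      congr 1
      rw [Finset.card_filter]
      push_cast
      exact Fintype.sum_equiv (Equiv.mulLeft g) _ _ (fun k => rfl)
    simp_rw [e2]
    rw [← Finset.sum_mul, Finset.card_filter]
    push_cast
    rfl
  rw [← key]
  field_simp

lemma sig_smul (g : G) (S : Finset X) : sig G (g • S) = sig G S := by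
  unfold sig
  congr 1
  norm_cast
  apply Finset.card_bij' (fun h _ => g⁻¹ * h * g) (fun h _ => g * h * g⁻¹)
  · intro h hh
    simp only [mem_filter, mem_univ, true_and] at hh ⊢
    rw [mul_smul, mul_smul, hh, inv_smul_smul]
  · intro h hh
    simp only [mem_filter, mem_univ, true_and] at hh ⊢
    rw [mul_smul, mul_smul, inv_smul_smul, hh]
  · intro h _
    group
  · intro h _
    group

lemma Sparse.of_smul_subset {q : ℝ} {H Q : Finset X} (hH : Sparse G q H) {g : G}
    (hg : g • Q ⊆ H) : Sparse G q Q := by
  intro S hS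
  have := hH (g • S) ((Finset.smul_finset_subset_smul_finset_iff.2 hS).trans hg)
  rwa [sig_smul, Finset.card_smul_finset] at this

/-- The base estimate. -/
lemma nu_le_choose {q : ℝ} {P : Finset X} (hP : Sparse G q P) (S : Finset X) :
    nu G P S ≤ (P.card.choose S.card : ℝ) * q ^ S.card := by
  classical
  have hc := cardG_pos (G := G)
  have h1 : ({g : G | g • S ⊆ P} : Finset G)
      ⊆ (P.powersetCard S.card).biUnion fun R => {g : G | g • S = R} := by
    intro g hg
    simp only [mem_filter, mem_univ, true_and] at hg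
    simp only [mem_biUnion, mem_powersetCard, mem_filter, mem_univ, true_and]
    exact ⟨g • S, ⟨hg, Finset.card_smul_finset _ _⟩, rfl⟩
  have h2 : ∀ R ∈ P.powersetCard S.card, (#{g : G | g • S = R} : ℝ) / Fintype.card G
      ≤ q ^ S.card := by
    intro R hR
    rw [mem_powersetCard] at hR
    rcases ({g : G | g • S = R} : Finset G).eq_empty_or_nonempty with he | ⟨g₀, hg₀⟩
    · rw [he]
      have := hP R hR.1
      rw [hR.2] at this
      simp only [card_empty, Nat.cast_zero, zero_div]
      refine le_trans ?_ this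
      unfold sig; positivity
    · simp only [mem_filter, mem_univ, true_and] at hg₀
      have h3 : #{g : G | g • S = R} ≤ #{g : G | g • R = R} := by
        apply Finset.card_le_card_of_injOn (fun g => g * g₀⁻¹)
        · intro g hg
          simp only [coe_filter, mem_univ, true_and, Set.mem_ofPred_eq] at hg ⊢
          rw [← hg₀, mul_smul, inv_smul_smul, hg, hg₀]
        · intro a _ b _ hab
          simpa using hab
      calc (#{g : G | g • S = R} : ℝ) / Fintype.card G
          ≤ (#{g : G | g • R = R} : ℝ) / Fintype.card G := by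
            apply div_le_div_of_nonneg_right _ hc.le
            exact_mod_cast h3
        _ = sig G R := rfl
        _ ≤ q ^ R.card := hP R hR.1
        _ = q ^ S.card := by rw [hR.2]
  unfold nu
  calc (#{g : G | g • S ⊆ P} : ℝ) / Fintype.card G
      ≤ (∑ R ∈ P.powersetCard S.card, (#{g : G | g • S = R} : ℝ)) / Fintype.card G := by
        apply div_le_div_of_nonneg_right _ hc.le
        exact_mod_cast (Finset.card_le_card h1).trans Finset.card_biUnion_le
    _ = ∑ R ∈ P.powersetCard S.card, (#{g : G | g • S = R} : ℝ) / Fintype.card G := by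
        rw [Finset.sum_div]
    _ ≤ ∑ R ∈ P.powersetCard S.card, q ^ S.card := Finset.sum_le_sum h2
    _ = (P.card.choose S.card : ℝ) * q ^ S.card := by
        rw [Finset.sum_const, Finset.card_powersetCard, nsmul_eq_mul]

/-- Reweighting: if `Q` maximises `ν_H(Q) β^{-|Q|}` then `ν_H(T)` is controlled by `ν_Q`. -/
lemma nu_le_sum_of_max {β : ℝ} (hβ : 0 < β) {H Q : Finset X}
    (hmax : ∀ Q' : Finset X, nu G H Q' * (β ^ Q'.card)⁻¹ ≤ nu G H Q * (β ^ Q.card)⁻¹)
    (T : Finset X) :
    nu G H T ≤ β ^ T.card * ∑ R ∈ T.powerset, nu G Q R * (β ^ R.card)⁻¹ := by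
  have hc := cardG_pos (G := G)
  have hQpos : 0 < nu G H Q := by
    have := hmax ∅
    simp only [nu_empty, card_empty, pow_zero, inv_one, mul_one] at this
    by_contra hneg
    have h0 : nu G H Q = 0 := le_antisymm (not_lt.1 hneg) (nu_nonneg _ _)
    rw [h0, zero_mul] at this
    linarith
  -- each translate
  have h1 : ∀ k : G, nu G H (Q ∪ k • T)
      ≤ nu G H Q * (β ^ T.card * ∑ R ∈ T.powerset, (if k • R ⊆ Q then (β ^ R.card)⁻¹ else 0)) := by
    intro k
    have h2 := hmax (Q ∪ k • T)
    have hpos1 : 0 < β ^ (Q ∪ k • T).card := pow_pos hβ _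
    have hposQ : 0 < β ^ Q.card := pow_pos hβ _
    have h3 : nu G H (Q ∪ k • T) ≤ nu G H Q * ((β ^ Q.card)⁻¹ * β ^ (Q ∪ k • T).card) := by
      rw [← mul_assoc]
      calc nu G H (Q ∪ k • T) = (nu G H (Q ∪ k • T) * (β ^ (Q ∪ k • T).card)⁻¹)
            * β ^ (Q ∪ k • T).card := by field_simp
        _ ≤ _ := mul_le_mul_of_nonneg_right h2 hpos1.le
    refine h3.trans (mul_le_mul_of_nonneg_left ?_ hQpos.le)
    -- card identity
    set R₀ : Finset X := k⁻¹ • (Q ∩ k • T) with hR₀
    have hkR₀ : k • R₀ = Q ∩ k • T := by rw [hR₀, smul_inv_smul]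
    have hR₀T : R₀ ⊆ T := by
      have : k • R₀ ⊆ k • T := by rw [hkR₀]; exact inter_subset_right
      exact Finset.smul_finset_subset_smul_finset_iff.1 this
    have hcardR₀ : R₀.card = (Q ∩ k • T).card := by
      rw [hR₀]; exact Finset.card_smul_finset _ _
    have hcard : (Q ∪ k • T).card + R₀.card = Q.card + T.card := by
      rw [hcardR₀, Finset.card_union_add_card_inter, Finset.card_smul_finset]
    have h4 : (β ^ Q.card)⁻¹ * β ^ (Q ∪ k • T).card = β ^ T.card * (β ^ R₀.card)⁻¹ := by
      have : β ^ (Q ∪ k • T).card * β ^ R₀.card = β ^ Q.card * β ^ T.card := by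
        rw [← pow_add, ← pow_add, hcard]
      have hposR : 0 < β ^ R₀.card := pow_pos hβ _
      field_simp
      linarith
    rw [h4]
    apply mul_le_mul_of_nonneg_left _ (pow_pos hβ _).le
    have h5 : (β ^ R₀.card)⁻¹ = (if k • R₀ ⊆ Q then (β ^ R₀.card)⁻¹ else 0) := by
      rw [if_pos]
      rw [hkR₀]; exact inter_subset_left
    rw [h5]
    apply Finset.single_le_sum (f := fun R : Finset X => (if k • R ⊆ Q then (β ^ R.card)⁻¹ else 0))
    · intro R _
      split_ifs
      · exact inv_nonneg.2 (pow_pos hβ _).le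
      · exact le_rfl
    · exact mem_powerset.2 hR₀T
  have h6 := nu_mul_nu (G := G) H Q T
  have h7 : nu G H Q * nu G H T ≤ nu G H Q * (β ^ T.card * ∑ R ∈ T.powerset, nu G Q R * (β ^ R.card)⁻¹) := by
    rw [h6, div_le_iff₀ hc]
    calc ∑ k : G, nu G H (Q ∪ k • T)
        ≤ ∑ k : G, nu G H Q * (β ^ T.card * ∑ R ∈ T.powerset, (if k • R ⊆ Q then (β ^ R.card)⁻¹ else 0)) :=
          Finset.sum_le_sum fun k _ => h1 k
      _ = nu G H Q * (β ^ T.card * ∑ R ∈ T.powerset, ∑ k : G, (if k • R ⊆ Q then (β ^ R.card)⁻¹ else 0)) := by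
          rw [← Finset.mul_sum, ← Finset.mul_sum, Finset.sum_comm]
      _ = nu G H Q * (β ^ T.card * ∑ R ∈ T.powerset, nu G Q R * (β ^ R.card)⁻¹) * Fintype.card G := by
          rw [mul_assoc, mul_assoc]
          congr 2
          rw [Finset.sum_mul]
          refine Finset.sum_congr rfl fun R _ => ?_
          rw [← Finset.sum_filter, Finset.sum_const, nsmul_eq_mul]
          unfold nu
          field_simp
  exact le_of_mul_le_mul_left h7 hQpos

/-- The threshold ratio. -/
noncomputable def Lz : ℝ := (256 : ℝ) ^ 4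

/-- The absolute constant. -/
noncomputable def KK : ℝ := Real.exp Lz

lemma KK_pos : 0 < KK := Real.exp_pos _

/-- The bound on the spread at ratio `t/j`. -/
noncomputable def phi (t j : ℕ) : ℝ := KK * gf (1 + Real.log ((t : ℝ) / j))

lemma phi_arg {t j : ℕ} (hj : 0 < j) (hjt : j ≤ t) : 1 ≤ 1 + Real.log ((t : ℝ) / j) := by
  have h : 1 ≤ (t : ℝ) / j := by
    rw [one_le_div (by exact_mod_cast hj)]
    exact_mod_cast hjt
  have := Real.log_nonneg h
  linarith

lemma phi_pos {t j : ℕ} (hj : 0 < j) (hjt : j ≤ t) : 0 < phi t j := by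
  have := gf_one_le (phi_arg hj hjt)
  unfold phi
  exact mul_pos KK_pos (by linarith)

/-- The contribution of one subset in the induction step. -/
lemma step_bound {L s : ℝ} (hs0 : 0 ≤ s) (hL : 1 ≤ L) {D : ℝ} (hD : 1 ≤ D) {j r : ℕ}
    (hr : 0 < r) (hrj : r ≤ j) :
    (gf (1 + s + Real.log ((j : ℝ) / r)) / D) ^ r
      ≤ (gf (1 + s + 2 * Real.log L) / D) ^ r * Real.exp (j / L ^ 2) := by
  have hr' : (0 : ℝ) < r := by exact_mod_cast hr
  have hj' : (0 : ℝ) < j := by exact_mod_cast (lt_of_lt_of_le hr hrj)
  have hL0 : 0 < L := by linarith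
  have hlogL : 0 ≤ Real.log L := Real.log_nonneg hL
  have hjr : 1 ≤ (j : ℝ) / r := by
    rw [one_le_div hr']; exact_mod_cast hrj
  have hlogjr : 0 ≤ Real.log ((j : ℝ) / r) := Real.log_nonneg hjr
  have hg1 : 1 ≤ gf (1 + s + 2 * Real.log L) := gf_one_le (by linarith)
  have hg2 : 1 ≤ gf (1 + s + Real.log ((j : ℝ) / r)) := gf_one_le (by linarith)
  have hD0 : 0 < D := by linarith
  have hexp1 : 1 ≤ Real.exp (j / L ^ 2) := Real.one_le_exp (by positivity)
  rcases le_or_gt (Real.log ((j : ℝ) / r)) (2 * Real.log L) with h | h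
  · have h1 : gf (1 + s + Real.log ((j : ℝ) / r)) ≤ gf (1 + s + 2 * Real.log L) :=
      gf_mono (by linarith) (by linarith)
    have h2 : (gf (1 + s + Real.log ((j : ℝ) / r)) / D) ^ r
        ≤ (gf (1 + s + 2 * Real.log L) / D) ^ r := by
      apply pow_le_pow_left₀ (by positivity)
      exact div_le_div_of_nonneg_right h1 hD0.le
    have h3 : 0 ≤ (gf (1 + s + 2 * Real.log L) / D) ^ r := by positivity
    calc _ ≤ (gf (1 + s + 2 * Real.log L) / D) ^ r * 1 := by rw [mul_one]; exact h2
      _ ≤ _ := mul_le_mul_of_nonneg_left hexp1 h3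
  · set δ := Real.log ((j : ℝ) / r) - 2 * Real.log L with hδ
    have hδ0 : 0 ≤ δ := by linarith
    have h1 : gf (1 + s + Real.log ((j : ℝ) / r)) ≤ gf (1 + s + 2 * Real.log L) * Real.exp δ := by
      have e1 : 1 + s + Real.log ((j : ℝ) / r) = (1 + s + 2 * Real.log L) + δ := by
        rw [hδ]; ring
      rw [e1]
      have e2 := gf_add_le (u := 1 + s + 2 * Real.log L) hδ0
      have e3 : 1 + δ ≤ Real.exp δ := by
        have := Real.add_one_le_exp δ; linarith
      calc gf (1 + s + 2 * Real.log L + δ) ≤ gf (1 + s + 2 * Real.log L) + δ := e2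
        _ ≤ gf (1 + s + 2 * Real.log L) * (1 + δ) := by nlinarith
        _ ≤ _ := mul_le_mul_of_nonneg_left e3 (by linarith)
    have h2 : Real.exp δ = ((j : ℝ) / L ^ 2) / r := by
      rw [hδ, Real.exp_sub, Real.exp_log (by positivity)]
      have : Real.exp (2 * Real.log L) = L ^ 2 := by
        rw [two_mul, Real.exp_add, Real.exp_log hL0]; ring
      rw [this]
      field_simp
    have h3 : (gf (1 + s + Real.log ((j : ℝ) / r)) / D) ^ r
        ≤ (gf (1 + s + 2 * Real.log L) / D * (((j : ℝ) / L ^ 2) / r)) ^ r := by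
      apply pow_le_pow_left₀ (by positivity)
      rw [← h2, div_mul_eq_mul_div]
      exact div_le_div_of_nonneg_right h1 hD0.le
    refine h3.trans ?_
    rw [mul_pow]
    apply mul_le_mul_of_nonneg_left _ (by positivity)
    exact div_pow_le_exp (by positivity) hr

/-- **Theorem A.** A `q`-sparse set is spread with at most a logarithmic loss. -/
theorem nu_le_phi [Fintype X] {q : ℝ} (hq : 0 < q) :
    ∀ (t : ℕ) (H : Finset X), H.card = t → Sparse G q H →
      ∀ S : Finset X, S.Nonempty → S.card ≤ t → nu G H S ≤ (phi t S.card * q) ^ S.card := by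
  intro t
  induction t using Nat.strong_induction_on with
  | _ t ih =>
  intro H hHt hH
  by_contra hcon
  push Not at hcon
  obtain ⟨S₁, hS₁ne, hS₁t, hS₁⟩ := hcon
  -- the worst violator
  set B : Finset X → ℝ := fun S => nu G H S * ((phi t S.card * q) ^ S.card)⁻¹ with hB
  obtain ⟨S, hSmem, hSmax⟩ := Finset.exists_max_image
    ({S : Finset X | S.Nonempty ∧ S.card ≤ t} : Finset (Finset X)) B
    ⟨S₁, by simp [hS₁ne, hS₁t]⟩
  simp only [mem_filter, mem_univ, true_and] at hSmem
  obtain ⟨hSne, hSt⟩ := hSmem
  have hpos : ∀ Q : Finset X, Q.Nonempty → Q.card ≤ t → 0 < (phi t Q.card * q) ^ Q.card :=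
    fun Q hQ hQt => pow_pos (mul_pos (phi_pos hQ.card_pos hQt) hq) _
  have hBS : 1 < B S := by
    have h1 := hSmax S₁ (by simp [hS₁ne, hS₁t])
    refine lt_of_lt_of_le ?_ h1
    have h2 := hpos S₁ hS₁ne hS₁t
    rw [hB]
    simp only
    rw [← div_eq_mul_inv, one_lt_div h2]
    exact hS₁
  set Bs := B S with hBs
  set j := S.card with hj
  have hj0 : 0 < j := hSne.card_pos
  have hj' : (0 : ℝ) < j := by exact_mod_cast hj0
  have ht0 : 0 < t := lt_of_lt_of_le hj0 hSt
  have ht' : (0 : ℝ) < t := by exact_mod_cast ht0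
  set L := 1 + Real.log ((t : ℝ) / j) with hLdef
  have hL1 : 1 ≤ L := phi_arg hj0 hSt
  have hgL : 1 ≤ gf L := gf_one_le hL1
  have hPpos : 0 < (KK * gf L * q) ^ j :=
    pow_pos (mul_pos (mul_pos KK_pos (by linarith)) hq) _
  have hnuS : nu G H S = Bs * (KK * gf L * q) ^ j := by
    have h2 := hpos S hSne hSt
    rw [hBs, hB]
    simp only
    rw [mul_assoc]
    have : ((phi t S.card * q) ^ S.card)⁻¹ * (KK * gf L * q) ^ j = 1 := by
      rw [← hj]
      unfold phi
      rw [← hLdef]
      exact inv_mul_cancel₀ hPpos.ne'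
    rw [this, mul_one]
  have hcontra : ¬ (nu G H S ≤ (KK * gf L * q) ^ j) := by
    rw [hnuS]
    push Not
    nlinarith
  have hall : ∀ Q : Finset X, Q.Nonempty → Q.card ≤ t →
      nu G H Q ≤ Bs * (phi t Q.card * q) ^ Q.card := by
    intro Q hQ hQt
    have h1 := hSmax Q (by simp [hQ, hQt])
    have h2 := hpos Q hQ hQt
    change nu G H Q * ((phi t Q.card * q) ^ Q.card)⁻¹ ≤ Bs at h1
    rw [← div_eq_mul_inv, div_le_iff₀ h2] at h1
    exact h1
  rcases lt_or_ge L Lz with hLsmall | hLbig
  · -- small ratio: trivial bound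
    apply hcontra
    have h1 := nu_le_choose hH S
    rw [hHt, ← hj] at h1
    have h2 := choose_le_exp_pow (t := t) hj0
    have h3 : Real.exp 1 * ((t : ℝ) / j) = Real.exp L := by
      rw [hLdef, Real.exp_add, Real.exp_log (div_pos ht' hj')]
    rw [h3] at h2
    have h4 : Real.exp L ≤ KK * gf L := by
      have h5 : Real.exp L ≤ KK := Real.exp_le_exp.2 hLsmall.le
      have := KK_pos
      nlinarith
    calc nu G H S ≤ (t.choose j : ℝ) * q ^ j := h1
      _ ≤ (Real.exp L) ^ j * q ^ j := mul_le_mul_of_nonneg_right h2 (by positivity)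
      _ = (Real.exp L * q) ^ j := by rw [mul_pow]
      _ ≤ (KK * gf L * q) ^ j := by
          apply pow_le_pow_left₀ (by positivity)
          exact mul_le_mul_of_nonneg_right h4 hq.le
  · -- large ratio
    have hL0 : 0 < L := by linarith
    have hkey := key_numeric (L := L) hLbig
    set s := √L with hs
    have hs2 : s * s = L := Real.mul_self_sqrt hL0.le
    have hs2' : (2 : ℝ) ≤ s := by
      rw [hs]
      apply Real.le_sqrt_of_sq_le
      refine le_trans ?_ hLbig
      unfold Lz
      norm_num
    have hs0 : 0 < s := by linarith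
    have hLs1 : 1 ≤ L - s := by nlinarith
    have hgLs : 1 ≤ gf (L - s) := gf_one_le hLs1
    have hgLs' : gf (L - s) < gf L := gf_strictMono hLs1 (by linarith)
    set β := KK * gf (L - s) * q with hβ
    have hβ0 : 0 < β := mul_pos (mul_pos KK_pos (by linarith)) hq
    obtain ⟨Q, -, hQmax⟩ := Finset.exists_max_image (univ : Finset (Finset X))
      (fun Q => nu G H Q * (β ^ Q.card)⁻¹) univ_nonempty
    have hmax : ∀ Q' : Finset X, nu G H Q' * (β ^ Q'.card)⁻¹ ≤ nu G H Q * (β ^ Q.card)⁻¹ :=
      fun Q' => hQmax Q' (mem_univ _)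
    have hQpos : 0 < nu G H Q := by
      have := hmax ∅
      simp only [nu_empty, card_empty, pow_zero, inv_one, mul_one] at this
      by_contra hneg
      have h0 : nu G H Q = 0 := le_antisymm (not_lt.1 hneg) (nu_nonneg _ _)
      rw [h0, zero_mul] at this
      linarith
    have hQt : Q.card ≤ t := by
      by_contra hlt
      push Not at hlt
      have := nu_eq_zero_of_card_lt (G := G) (H := H) (S := Q) (by rw [hHt]; exact hlt)
      rw [this] at hQpos
      exact lt_irrefl _ hQpos
    have hQY : (Q.card : ℝ) ≤ j * Real.exp s := by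
      by_contra hlt
      push Not at hlt
      have hYpos : 0 < j * Real.exp s := mul_pos hj' (Real.exp_pos _)
      have hQc : (0 : ℝ) < Q.card := hYpos.trans hlt
      have hQc' : 0 < Q.card := by exact_mod_cast hQc
      have hQne : Q.Nonempty := Finset.card_pos.1 hQc'
      have h1 := hmax S
      have h2 := hall Q hQne hQt
      have h3 : phi t Q.card * q ≤ β := by
        rw [hβ]
        apply mul_le_mul_of_nonneg_right _ hq.le
        unfold phi
        apply mul_le_mul_of_nonneg_left _ KK_pos.le
        apply gf_mono (phi_arg hQc' hQt)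
        have h4 : Real.log ((t : ℝ) / Q.card) ≤ Real.log ((t : ℝ) / (j * Real.exp s)) := by
          apply Real.log_le_log (div_pos ht' hQc)
          exact div_le_div_of_nonneg_left ht'.le hYpos hlt.le
        have h5 : Real.log ((t : ℝ) / (j * Real.exp s)) = Real.log ((t : ℝ) / j) - s := by
          rw [← div_div, Real.log_div (div_pos ht' hj').ne' (Real.exp_pos _).ne', Real.log_exp]
        rw [hLdef]
        linarith
      have hposQ : 0 < β ^ Q.card := pow_pos hβ0 _
      have h6 : nu G H Q * (β ^ Q.card)⁻¹ ≤ Bs := by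
        rw [← div_eq_mul_inv, div_le_iff₀ hposQ]
        refine h2.trans (mul_le_mul_of_nonneg_left ?_ (by linarith))
        apply pow_le_pow_left₀ _ h3
        exact (mul_pos (phi_pos hQc' hQt) hq).le
      have h7 : Bs < nu G H S * (β ^ j)⁻¹ := by
        rw [← div_eq_mul_inv, lt_div_iff₀ (pow_pos hβ0 _), hnuS]
        apply mul_lt_mul_of_pos_left _ (by linarith)
        apply pow_lt_pow_left₀ _ hβ0.le hj0.ne'
        rw [hβ]
        apply mul_lt_mul_of_pos_right _ hq
        exact mul_lt_mul_of_pos_left hgLs' KK_pos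
      linarith
    have hQlt : Q.card < t := by
      have h1 : s < Real.log ((t : ℝ) / j) := by
        have : L - 1 = Real.log ((t : ℝ) / j) := by rw [hLdef]; ring
        rw [← this]
        nlinarith
      have h2 : j * Real.exp s < t := by
        calc j * Real.exp s < j * Real.exp (Real.log ((t : ℝ) / j)) :=
              mul_lt_mul_of_pos_left (Real.exp_lt_exp.2 h1) hj'
          _ = t := by
              rw [Real.exp_log (div_pos ht' hj')]
              field_simp
      exact_mod_cast hQY.trans_lt h2
    obtain ⟨g₀, hg₀⟩ := exists_of_nu_pos hQpos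
    have hQsp : Sparse G q Q := hH.of_smul_subset hg₀
    have hIH := ih Q.card hQlt Q rfl hQsp
    have hterm : ∀ R ∈ S.powerset, nu G Q R * (β ^ R.card)⁻¹
        ≤ (gf (1 + s + 2 * Real.log L) / gf (L - s)) ^ R.card * Real.exp (j / L ^ 2) := by
      intro R hR
      rw [mem_powerset] at hR
      have hRj : R.card ≤ j := Finset.card_le_card hR
      have hlogL : 0 ≤ Real.log L := Real.log_nonneg hL1
      have hg1 : 1 ≤ gf (1 + s + 2 * Real.log L) := gf_one_le (by linarith)
      rcases R.eq_empty_or_nonempty with rfl | hRne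
      · simp only [nu_empty, card_empty, pow_zero, inv_one, mul_one, one_mul]
        exact Real.one_le_exp (div_nonneg hj'.le (sq_nonneg L))
      · rcases lt_or_ge Q.card R.card with hlt | hge
        · rw [nu_eq_zero_of_card_lt hlt, zero_mul]
          positivity
        · have hr0 : 0 < R.card := hRne.card_pos
          have hr' : (0 : ℝ) < R.card := by exact_mod_cast hr0
          have h1 := hIH R hRne hge
          have hQc' : 0 < Q.card := lt_of_lt_of_le hr0 hge
          have hQc : (0 : ℝ) < Q.card := by exact_mod_cast hQc'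
          have h2 : phi Q.card R.card ≤ KK * gf (1 + s + Real.log ((j : ℝ) / R.card)) := by
            unfold phi
            apply mul_le_mul_of_nonneg_left _ KK_pos.le
            apply gf_mono (phi_arg hr0 hge)
            have h3 : Real.log ((Q.card : ℝ) / R.card) ≤ Real.log ((j * Real.exp s) / R.card) := by
              apply Real.log_le_log (div_pos hQc hr')
              exact div_le_div_of_nonneg_right hQY hr'.le
            have h4 : Real.log ((j * Real.exp s) / R.card) = s + Real.log ((j : ℝ) / R.card) := by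
              rw [mul_comm, mul_div_assoc, Real.log_mul (Real.exp_pos _).ne' (div_pos hj' hr').ne',
                Real.log_exp]
            linarith
          have h5 : nu G Q R * (β ^ R.card)⁻¹
              ≤ (gf (1 + s + Real.log ((j : ℝ) / R.card)) / gf (L - s)) ^ R.card := by
            have hKq : 0 < KK * q := mul_pos KK_pos hq
            rw [← div_eq_mul_inv, div_le_iff₀ (pow_pos hβ0 _), ← mul_pow]
            refine h1.trans ?_
            apply pow_le_pow_left₀ (mul_pos (phi_pos hr0 hge) hq).le
            calc phi Q.card R.card * q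
                ≤ KK * gf (1 + s + Real.log ((j : ℝ) / R.card)) * q :=
                  mul_le_mul_of_nonneg_right h2 hq.le
              _ = gf (1 + s + Real.log ((j : ℝ) / R.card)) / gf (L - s) * β := by
                  rw [hβ]
                  have : gf (L - s) ≠ 0 := by linarith
                  field_simp
          exact h5.trans (step_bound hs0.le hL1 hgLs hr0 hRj)
    -- conclusion
    apply hcontra
    set a := gf (1 + s + 2 * Real.log L) / gf (L - s) with ha
    have hlogL : 0 ≤ Real.log L := Real.log_nonneg hL1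
    have hg1 : 1 ≤ gf (1 + s + 2 * Real.log L) := gf_one_le (by linarith)
    have ha0 : 0 ≤ a := by rw [ha]; positivity
    have hsum := nu_le_sum_of_max hβ0 hmax S
    rw [← hj] at hsum
    have h1 : ∑ R ∈ S.powerset, nu G Q R * (β ^ R.card)⁻¹
        ≤ (1 + a) ^ j * Real.exp (j / L ^ 2) := by
      calc ∑ R ∈ S.powerset, nu G Q R * (β ^ R.card)⁻¹
          ≤ ∑ R ∈ S.powerset, a ^ R.card * Real.exp (j / L ^ 2) := Finset.sum_le_sum hterm
        _ = (∑ R ∈ S.powerset, a ^ R.card) * Real.exp (j / L ^ 2) := by rw [Finset.sum_mul]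
        _ = (1 + a) ^ j * Real.exp (j / L ^ 2) := by
            congr 1
            have := Finset.sum_pow_mul_eq_add_pow a 1 S
            simp only [one_pow, mul_one] at this
            rw [this, add_comm]
    have h2 : Real.exp (j / L ^ 2) = (Real.exp (1 / L ^ 2)) ^ j := by
      rw [← Real.exp_nat_mul]; congr 1; ring
    calc nu G H S ≤ β ^ j * ((1 + a) ^ j * Real.exp (j / L ^ 2)) :=
          hsum.trans (mul_le_mul_of_nonneg_left h1 (pow_pos hβ0 _).le)
      _ = (β * (1 + a) * Real.exp (1 / L ^ 2)) ^ j := by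
          rw [h2]
          have : ∀ x y z : ℝ, x ^ j * (y ^ j * z ^ j) = (x * y * z) ^ j := by
            intro x y z
            rw [mul_pow, mul_pow]; ring
          exact this _ _ _
      _ ≤ (KK * gf L * q) ^ j := by
          apply pow_le_pow_left₀ (by positivity)
          have h3 : β * (1 + a) = KK * q * (gf (L - s) + gf (1 + s + 2 * Real.log L)) := by
            rw [hβ, ha]
            have : gf (L - s) ≠ 0 := by linarith
            field_simp
          rw [h3]
          have h4 := hkey
          have hKq : 0 < KK * q := mul_pos KK_pos hq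
          calc KK * q * (gf (L - s) + gf (1 + s + 2 * Real.log L)) * Real.exp (1 / L ^ 2)
              = KK * q * ((gf (L - s) + gf (1 + s + 2 * Real.log L)) * Real.exp (1 / L ^ 2)) := by
                ring
            _ ≤ KK * q * gf L := mul_le_mul_of_nonneg_left h4 hKq.le
            _ = KK * gf L * q := by ring

/-- Uniform version of Theorem A. -/
theorem nu_le_log [Fintype X] {q : ℝ} (hq : 0 < q) {H : Finset X} (hH : Sparse G q H)
    (hne : H.Nonempty) (S : Finset X) :
    nu G H S ≤ (KK * (1 + Real.log H.card) * q) ^ S.card := by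
  have hH0 : (1 : ℝ) ≤ H.card := by exact_mod_cast hne.card_pos
  have hlog : 0 ≤ Real.log H.card := Real.log_nonneg hH0
  have hK := KK_pos
  rcases S.eq_empty_or_nonempty with rfl | hS
  · simp
  · rcases lt_or_ge H.card S.card with hlt | hge
    · rw [nu_eq_zero_of_card_lt hlt]
      positivity
    · refine (nu_le_phi hq H.card H rfl hH S hS hge).trans ?_
      have hS0 : (1 : ℝ) ≤ S.card := by exact_mod_cast hS.card_pos
      apply pow_le_pow_left₀ (mul_pos (phi_pos hS.card_pos hge) hq).le
      apply mul_le_mul_of_nonneg_right _ hq.le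
      unfold phi
      apply mul_le_mul_of_nonneg_left _ hK.le
      have h1 := gf_le (phi_arg hS.card_pos hge)
      refine h1.trans ?_
      have h2 : Real.log ((H.card : ℝ) / S.card) ≤ Real.log H.card := by
        apply Real.log_le_log (by positivity)
        exact div_le_self (by positivity) hS0
      linarith

end Vale.P064
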