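import Mathlib

/-!
# P064, the spread lemma
A one-step-at-a-time proof (after Frankston–Kahn–Narayanan–Park) that the edge set of a spread
hypergraph is hit by a random set of density about `spread * log (size)`.
-/

open Finset

namespace Vale.P064

set_option linter.unusedSectionVars false

variable {X : Type*} [Fintype X] [DecidableEq X]

/-- Probability of `W` under the `p`-biased product measure. -/
noncomputable def PP (p : ℝ) (W : Finset X) : ℝ :=
  p ^ W.card * (1 - p) ^ (Fintype.card X - W.card)

lemma PP_nonneg {p : ℝ} (h0 : 0 ≤ p) (h1 : p ≤ 1) (W : Finset X) : 0 ≤ PP p W := by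
  unfold PP
  have : 0 ≤ 1 - p := by linarith
  positivity

lemma sum_PP (p : ℝ) : ∑ W : Finset X, PP p W = 1 := by
  have := Finset.sum_pow_mul_eq_add_pow p (1 - p) (univ : Finset X)
  rw [add_sub_cancel, one_pow, Finset.powerset_univ] at this
  exact this

lemma sum_PP_inner (p : ℝ) {V W : Finset X} (h : V ⊆ W) :
    ∑ U ∈ univ.filter (fun U : Finset X => V ∪ U = W), PP p U
      = p ^ (W.card - V.card) * (1 - p) ^ (Fintype.card X - W.card) := by
  have key := Finset.sum_pow_mul_eq_add_pow p (1 - p) V
  rw [add_sub_cancel, one_pow] at key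
  have hWc : W.card ≤ Fintype.card X := Finset.card_le_univ _
  have hVc : V.card ≤ W.card := Finset.card_le_card h
  calc ∑ U ∈ univ.filter (fun U : Finset X => V ∪ U = W), PP p U
      = ∑ R ∈ V.powerset, (p ^ (W.card - V.card) * (1 - p) ^ (Fintype.card X - W.card))
          * (p ^ R.card * (1 - p) ^ (V.card - R.card)) := by
        apply Finset.sum_bij' (fun U _ => U ∩ V) (fun R _ => (W \ V) ∪ R)
        · intro U _
          exact mem_powerset.2 inter_subset_right
        · intro R hR
          rw [mem_powerset] at hR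
          simp only [mem_filter, mem_univ, true_and]
          ext x
          simp only [mem_union, mem_sdiff]
          constructor
          · rintro (h1 | ⟨h1, _⟩ | h1)
            · exact h h1
            · exact h1
            · exact h (hR h1)
          · intro h1
            by_cases h2 : x ∈ V
            · exact Or.inl h2
            · exact Or.inr (Or.inl ⟨h1, h2⟩)
        · intro U hU
          simp only [mem_filter, mem_univ, true_and] at hU
          ext x
          simp only [mem_union, mem_sdiff, mem_inter]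
          constructor
          · rintro (⟨h1, h2⟩ | ⟨h1, _⟩)
            · rw [← hU, mem_union] at h1
              exact h1.resolve_left h2
            · exact h1
          · intro h1
            by_cases h2 : x ∈ V
            · exact Or.inr ⟨h1, h2⟩
            · refine Or.inl ⟨?_, h2⟩
              rw [← hU]; exact mem_union_right _ h1
        · intro R hR
          rw [mem_powerset] at hR
          ext x
          simp only [mem_union, mem_sdiff, mem_inter]
          constructor
          · rintro ⟨⟨_, h1⟩ | h1, h2⟩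
            · exact absurd h2 h1
            · exact h1
          · intro h1
            exact ⟨Or.inr h1, hR h1⟩
        · intro U hU
          simp only [mem_filter, mem_univ, true_and] at hU
          unfold PP
          have h1 : U.card + V.card = W.card + (U ∩ V).card := by
            rw [← hU, Finset.union_comm, Finset.card_union_add_card_inter]
          have h2 : (U ∩ V).card ≤ V.card := Finset.card_le_card inter_subset_right
          have h3 : U.card ≤ Fintype.card X := Finset.card_le_univ _
          have e1 : U.card = (W.card - V.card) + (U ∩ V).card := by omega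
          have e2 : Fintype.card X - U.card
              = (Fintype.card X - W.card) + (V.card - (U ∩ V).card) := by omega
          rw [e2]
          conv_lhs => rw [e1]
          rw [pow_add, pow_add]
          ring
    _ = p ^ (W.card - V.card) * (1 - p) ^ (Fintype.card X - W.card) := by
        rw [← Finset.mul_sum, key, mul_one]

lemma sum_PP_union (p₁ p₂ : ℝ) (f : Finset X → ℝ) :
    ∑ U : Finset X, ∑ V : Finset X, PP p₁ U * (PP p₂ V * f (U ∪ V))
      = ∑ W : Finset X, PP (1 - (1 - p₁) * (1 - p₂)) W * f W := by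
  have h1 : ∀ U : Finset X, ∑ V : Finset X, PP p₁ U * (PP p₂ V * f (U ∪ V))
      = ∑ W : Finset X, (if U ⊆ W then
          PP p₁ U * (p₂ ^ (W.card - U.card) * (1 - p₂) ^ (Fintype.card X - W.card)) else 0)
            * f W := by
    intro U
    rw [← Finset.sum_fiberwise_of_maps_to (s := univ) (t := univ)
      (g := fun V : Finset X => U ∪ V) (fun _ _ => mem_univ _)]
    refine Finset.sum_congr rfl fun W _ => ?_
    have h2 : ∀ V ∈ univ.filter (fun V : Finset X => U ∪ V = W),
        PP p₁ U * (PP p₂ V * f (U ∪ V)) = PP p₁ U * f W * PP p₂ V := by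
      intro V hV
      simp only [mem_filter, mem_univ, true_and] at hV
      rw [hV]; ring
    rw [Finset.sum_congr rfl h2, ← Finset.mul_sum]
    by_cases hUW : U ⊆ W
    · rw [sum_PP_inner p₂ hUW, if_pos hUW]
      ring
    · rw [if_neg hUW]
      have : univ.filter (fun V : Finset X => U ∪ V = W) = ∅ := by
        ext V
        simp only [mem_filter, mem_univ, true_and, notMem_empty, iff_false]
        intro hV
        exact hUW (hV ▸ subset_union_left)
      rw [this]; simp
  simp_rw [h1]
  rw [Finset.sum_comm]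
  refine Finset.sum_congr rfl fun W _ => ?_
  rw [← Finset.sum_mul]
  congr 1
  rw [← Finset.sum_filter]
  have hfil : (univ.filter fun U : Finset X => U ⊆ W) = W.powerset := by
    ext U; simp
  rw [hfil]
  have hWc : W.card ≤ Fintype.card X := Finset.card_le_univ _
  have key := Finset.sum_pow_mul_eq_add_pow p₁ ((1 - p₁) * p₂) W
  have e0 : p₁ + (1 - p₁) * p₂ = 1 - (1 - p₁) * (1 - p₂) := by ring
  rw [e0] at key
  unfold PP
  rw [sub_sub_cancel, ← key, Finset.sum_mul]
  refine Finset.sum_congr rfl fun U hU => ?_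
  rw [mem_powerset] at hU
  have hUc : U.card ≤ W.card := Finset.card_le_card hU
  have e1 : Fintype.card X - U.card = (Fintype.card X - W.card) + (W.card - U.card) := by omega
  rw [e1, pow_add, mul_pow, mul_pow]
  ring

/-- One round of exposure. -/
lemma one_round {ι : Type*} [DecidableEq ι] (I : Finset ι) (w : ι → ℝ) (hw : ∀ i, 0 ≤ w i)
    (A : ι → Finset X) {M : ℕ} (hA : ∀ i ∈ I, (A i).card ≤ 2 * M) {ρ : ℝ} (hρ : 0 < ρ)
    (hp : 16 * ρ ≤ 1)
    (hsp : ∀ T : Finset X, ∑ i ∈ I.filter (fun i => T ⊆ A i), w i ≤ ρ ^ T.card)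
    (τ : ι → Finset X → ι) (hτI : ∀ i ∈ I, ∀ W, τ i W ∈ I)
    (hτ1 : ∀ i ∈ I, ∀ W, A (τ i W) ⊆ W ∪ A i)
    (hτ2 : ∀ i ∈ I, ∀ W, ∀ i' ∈ I, A i' ⊆ W ∪ A i → (A (τ i W) \ W).card ≤ (A i' \ W).card) :
    ∑ W : Finset X, PP (16 * ρ) W *
      ∑ i ∈ I.filter (fun i => M ≤ (A (τ i W) \ W).card), w i ≤ (1 / 4 : ℝ) ^ M := by
  classical
  set p := 16 * ρ with hpdef
  have hp0 : 0 < p := by positivity
  set c : Finset X → Finset X := fun Z => if h : ∃ i ∈ I, A i ⊆ Z then A h.choose else ∅ with hc
  have hcc : ∀ Z, (c Z).card ≤ 2 * M := by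
    intro Z
    rw [hc]
    dsimp only
    split_ifs with h
    · exact hA _ h.choose_spec.1
    · simp
  -- the key containment
  have hTc : ∀ i ∈ I, ∀ W, A (τ i W) \ W ⊆ c (W ∪ (A (τ i W) \ W)) := by
    intro i hi W
    have hex : ∃ i' ∈ I, A i' ⊆ W ∪ (A (τ i W) \ W) := by
      refine ⟨τ i W, hτI i hi W, ?_⟩
      intro x hx
      by_cases h : x ∈ W
      · exact mem_union_left _ h
      · exact mem_union_right _ (mem_sdiff.2 ⟨hx, h⟩)
    have e : c (W ∪ (A (τ i W) \ W)) = A hex.choose := by
      rw [hc]; dsimp only; rw [dif_pos hex]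
    rw [e]
    obtain ⟨h1, h2⟩ := hex.choose_spec
    set i' := hex.choose
    have h3 : A i' ⊆ W ∪ A i := by
      intro x hx
      have := h2 hx
      rw [mem_union] at this ⊢
      rcases this with h | h
      · exact Or.inl h
      · rw [mem_sdiff] at h
        have := hτ1 i hi W h.1
        rw [mem_union] at this
        exact this
    have h4 := hτ2 i hi W i' h1 h3
    have h5 : A i' \ W ⊆ A (τ i W) \ W := by
      intro x hx
      rw [mem_sdiff] at hx
      have := h2 hx.1
      rw [mem_union] at this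
      exact this.resolve_left hx.2
    have h6 : A i' \ W = A (τ i W) \ W := Finset.eq_of_subset_of_card_le h5 h4
    rw [← h6]
    exact sdiff_subset
  -- comparison of weights
  have hPPle : ∀ W T : Finset X, Disjoint W T → PP p W ≤ PP p (W ∪ T) * (p ^ T.card)⁻¹ := by
    intro W T hWT
    rw [← div_eq_mul_inv, le_div_iff₀ (pow_pos hp0 _)]
    unfold PP
    rw [Finset.card_union_of_disjoint hWT]
    have hle : W.card + T.card ≤ Fintype.card X := by
      rw [← Finset.card_union_of_disjoint hWT]; exact Finset.card_le_univ _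
    have e1 : Fintype.card X - W.card = (Fintype.card X - (W.card + T.card)) + T.card := by omega
    rw [e1, pow_add, pow_add]
    have h1 : (1 - p) ^ T.card ≤ 1 := pow_le_one₀ (by linarith) (by linarith)
    have h2 : 0 ≤ p ^ W.card * p ^ T.card * (1 - p) ^ (Fintype.card X - (W.card + T.card)) := by
      have : 0 ≤ 1 - p := by linarith
      positivity
    calc p ^ W.card * ((1 - p) ^ (Fintype.card X - (W.card + T.card)) * (1 - p) ^ T.card)
          * p ^ T.card
        = p ^ W.card * p ^ T.card * (1 - p) ^ (Fintype.card X - (W.card + T.card))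
          * (1 - p) ^ T.card := by ring
      _ ≤ p ^ W.card * p ^ T.card * (1 - p) ^ (Fintype.card X - (W.card + T.card)) * 1 :=
          mul_le_mul_of_nonneg_left h1 h2
      _ = _ := by ring
  set F : Finset X × Finset X → ℝ := fun y => PP p y.1 * (p ^ y.2.card)⁻¹ with hF
  have hF0 : ∀ y, 0 ≤ F y := by
    intro y
    exact mul_nonneg (PP_nonneg hp0.le hp _) (inv_nonneg.2 (pow_pos hp0 _).le)
  -- fixed i
  have hfix : ∀ i ∈ I, ∑ W ∈ univ.filter (fun W : Finset X => M ≤ (A (τ i W) \ W).card), PP p W
      ≤ ∑ y ∈ univ.filter (fun y : Finset X × Finset X =>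
          (y.2 ⊆ c y.1 ∧ M ≤ y.2.card) ∧ y.2 ⊆ A i), F y := by
    intro i hi
    set φ : Finset X → Finset X × Finset X := fun W => (W ∪ (A (τ i W) \ W), A (τ i W) \ W) with hφ
    have hinj : Set.InjOn φ (univ.filter (fun W : Finset X => M ≤ (A (τ i W) \ W).card)) := by
      intro W₁ _ W₂ _ h12
      rw [hφ] at h12
      simp only [Prod.mk.injEq] at h12
      obtain ⟨h1, h2⟩ := h12
      have e1 : W₁ = (W₁ ∪ (A (τ i W₁) \ W₁)) \ (A (τ i W₁) \ W₁) := by
        rw [Finset.union_sdiff_right]
        exact (Finset.sdiff_eq_self_of_disjoint disjoint_sdiff).symm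
      have e2 : W₂ = (W₂ ∪ (A (τ i W₂) \ W₂)) \ (A (τ i W₂) \ W₂) := by
        rw [Finset.union_sdiff_right]
        exact (Finset.sdiff_eq_self_of_disjoint disjoint_sdiff).symm
      rw [e1, e2, h1, h2]
    calc ∑ W ∈ univ.filter (fun W : Finset X => M ≤ (A (τ i W) \ W).card), PP p W
        ≤ ∑ W ∈ univ.filter (fun W : Finset X => M ≤ (A (τ i W) \ W).card), F (φ W) := by
          apply Finset.sum_le_sum
          intro W _
          exact hPPle W _ disjoint_sdiff
      _ = ∑ y ∈ (univ.filter (fun W : Finset X => M ≤ (A (τ i W) \ W).card)).image φ, F y := by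
          rw [Finset.sum_image hinj]
      _ ≤ _ := by
          apply Finset.sum_le_sum_of_subset_of_nonneg
          · intro y hy
            rw [mem_image] at hy
            obtain ⟨W, hW, rfl⟩ := hy
            simp only [mem_filter, mem_univ, true_and] at hW ⊢
            refine ⟨⟨hTc i hi W, hW⟩, ?_⟩
            intro x hx
            have hx' : x ∈ A (τ i W) \ W := hx
            rw [mem_sdiff] at hx'
            have := hτ1 i hi W hx'.1
            rw [mem_union] at this
            exact this.resolve_left hx'.2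
          · intro y _ _
            exact hF0 y
  -- assemble
  calc ∑ W : Finset X, PP p W * ∑ i ∈ I.filter (fun i => M ≤ (A (τ i W) \ W).card), w i
      = ∑ i ∈ I, w i * ∑ W ∈ univ.filter (fun W : Finset X => M ≤ (A (τ i W) \ W).card), PP p W := by
        simp_rw [Finset.mul_sum, Finset.sum_filter]
        rw [Finset.sum_comm]
        refine Finset.sum_congr rfl fun i _ => Finset.sum_congr rfl fun W _ => ?_
        split_ifs
        · ring
        · rfl
    _ ≤ ∑ i ∈ I, w i * ∑ y ∈ univ.filter (fun y : Finset X × Finset X =>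
          (y.2 ⊆ c y.1 ∧ M ≤ y.2.card) ∧ y.2 ⊆ A i), F y :=
        Finset.sum_le_sum fun i hi => mul_le_mul_of_nonneg_left (hfix i hi) (hw i)
    _ = ∑ y ∈ univ.filter (fun y : Finset X × Finset X => y.2 ⊆ c y.1 ∧ M ≤ y.2.card),
          F y * ∑ i ∈ I.filter (fun i => y.2 ⊆ A i), w i := by
        simp_rw [Finset.mul_sum, Finset.sum_filter]
        rw [Finset.sum_comm]
        refine Finset.sum_congr rfl fun y _ => ?_
        by_cases h : y.2 ⊆ c y.1 ∧ M ≤ y.2.card
        · rw [if_pos h]
          refine Finset.sum_congr rfl fun i _ => ?_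
          by_cases h2 : y.2 ⊆ A i
          · rw [if_pos ⟨h, h2⟩, if_pos h2]; ring
          · rw [if_neg (fun hh => h2 hh.2), if_neg h2]
        · rw [if_neg h]
          apply Finset.sum_eq_zero
          intro i _
          rw [if_neg (fun hh => h hh.1)]
    _ ≤ ∑ y ∈ univ.filter (fun y : Finset X × Finset X => y.2 ⊆ c y.1 ∧ M ≤ y.2.card),
          PP p y.1 * (1 / 16 : ℝ) ^ M := by
        apply Finset.sum_le_sum
        intro y hy
        simp only [mem_filter, mem_univ, true_and] at hy
        have h1 := hsp y.2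
        have h2 : F y * ∑ i ∈ I.filter (fun i => y.2 ⊆ A i), w i ≤ F y * ρ ^ y.2.card :=
          mul_le_mul_of_nonneg_left h1 (hF0 y)
        refine h2.trans ?_
        rw [hF]
        simp only
        rw [mul_assoc]
        apply mul_le_mul_of_nonneg_left _ (PP_nonneg hp0.le hp _)
        have h3 : (p ^ y.2.card)⁻¹ * ρ ^ y.2.card = (1 / 16 : ℝ) ^ y.2.card := by
          rw [hpdef, mul_pow, mul_inv, mul_assoc, inv_mul_cancel₀ (pow_pos hρ _).ne', mul_one,
            one_div, inv_pow]
        rw [h3]
        exact pow_le_pow_of_le_one (by norm_num) (by norm_num) hy.2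
    _ = ∑ Z : Finset X, PP p Z * ∑ T ∈ univ.filter (fun T : Finset X => T ⊆ c Z ∧ M ≤ T.card),
          (1 / 16 : ℝ) ^ M := by
        rw [Finset.sum_filter, Fintype.sum_prod_type]
        refine Finset.sum_congr rfl fun Z _ => ?_
        rw [Finset.mul_sum, Finset.sum_filter]
    _ ≤ ∑ Z : Finset X, PP p Z * (1 / 4 : ℝ) ^ M := by
        apply Finset.sum_le_sum
        intro Z _
        apply mul_le_mul_of_nonneg_left _ (PP_nonneg hp0.le hp _)
        rw [Finset.sum_const, nsmul_eq_mul]
        have h1 : (univ.filter (fun T : Finset X => T ⊆ c Z ∧ M ≤ T.card)).card ≤ 4 ^ M := by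
          calc (univ.filter (fun T : Finset X => T ⊆ c Z ∧ M ≤ T.card)).card
              ≤ ((c Z).powerset).card := by
                apply Finset.card_le_card
                intro T hT
                simp only [mem_filter, mem_univ, true_and] at hT
                exact mem_powerset.2 hT.1
            _ = 2 ^ (c Z).card := Finset.card_powerset _
            _ ≤ 2 ^ (2 * M) := Nat.pow_le_pow_right (by norm_num) (hcc Z)
            _ = 4 ^ M := by rw [pow_mul]; norm_num
        have h2 : ((univ.filter (fun T : Finset X => T ⊆ c Z ∧ M ≤ T.card)).card : ℝ) ≤ 4 ^ M := by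
          exact_mod_cast h1
        calc ((univ.filter (fun T : Finset X => T ⊆ c Z ∧ M ≤ T.card)).card : ℝ) * (1 / 16) ^ M
            ≤ 4 ^ M * (1 / 16) ^ M := mul_le_mul_of_nonneg_right h2 (by positivity)
          _ = (1 / 4) ^ M := by rw [← mul_pow]; norm_num
    _ = (1 / 4 : ℝ) ^ M := by
        rw [← Finset.sum_mul, sum_PP, one_mul]

/-- The accumulated failure probability. -/
noncomputable def EE : ℕ → ℝ
  | 0 => 0
  | (m + 1) => EE m + (1 / 4) ^ (2 ^ m)

lemma EE_nonneg (m : ℕ) : 0 ≤ EE m := by
  induction m with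
  | zero => simp [EE]
  | succ m ih => rw [EE]; positivity

lemma EE_le (m : ℕ) : EE m ≤ 1 / 3 * (1 - (1 / 4) ^ m) := by
  induction m with
  | zero => simp [EE]
  | succ m ih =>
    rw [EE]
    have h1 : m + 1 ≤ 2 ^ m := Nat.lt_two_pow_self
    have h2 : (1 / 4 : ℝ) ^ (2 ^ m) ≤ (1 / 4) ^ (m + 1) :=
      pow_le_pow_of_le_one (by norm_num) (by norm_num) h1
    rw [pow_succ] at h2 ⊢
    linarith

lemma multi_round {ι : Type*} [DecidableEq ι] (w : ι → ℝ) (hw : ∀ i, 0 ≤ w i) {ρ : ℝ}
    (hρ : 0 < ρ) (hp : 16 * ρ ≤ 1) (m : ℕ) :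
    ∀ (I : Finset ι) (A : ι → Finset X), (∀ i ∈ I, (A i).card < 2 ^ m) →
      (∀ T : Finset X, ∑ i ∈ I.filter (fun i => T ⊆ A i), w i ≤ ρ ^ T.card) →
      (∑ i ∈ I, w i) * ∑ W : Finset X, PP (1 - (1 - 16 * ρ) ^ m) W *
        (if ∃ i ∈ I, A i ⊆ W then 0 else 1) ≤ EE m := by
  classical
  induction m with
  | zero =>
    intro I A hA _
    rcases I.eq_empty_or_nonempty with rfl | ⟨i₀, hi₀⟩
    · simp [EE]
    · have h1 : ∀ W : Finset X, (if ∃ i ∈ I, A i ⊆ W then (0:ℝ) else 1) = 0 := by
        intro W
        rw [if_pos]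
        refine ⟨i₀, hi₀, ?_⟩
        have := hA i₀ hi₀
        rw [pow_zero, Nat.lt_one_iff, Finset.card_eq_zero] at this
        rw [this]; exact empty_subset _
      simp only [h1, mul_zero, Finset.sum_const_zero, EE, le_refl]
  | succ m ih =>
    intro I A hA hsp
    have hex : ∀ i W, ∃ i', i ∈ I → (i' ∈ I ∧ A i' ⊆ W ∪ A i ∧
        ∀ i'' ∈ I, A i'' ⊆ W ∪ A i → (A i' \ W).card ≤ (A i'' \ W).card) := by
      intro i W
      by_cases hi : i ∈ I
      · obtain ⟨i', hi', hmin⟩ := Finset.exists_min_image
          (I.filter (fun i' => A i' ⊆ W ∪ A i)) (fun i' => (A i' \ W).card)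
          ⟨i, by simp only [mem_filter]; exact ⟨hi, subset_union_right⟩⟩
        rw [mem_filter] at hi'
        refine ⟨i', fun _ => ⟨hi'.1, hi'.2, ?_⟩⟩
        intro i'' h1 h2
        exact hmin i'' (mem_filter.2 ⟨h1, h2⟩)
      · exact ⟨i, fun h => absurd h hi⟩
    choose τ hτ using hex
    have hround := one_round I w hw A (M := 2 ^ m)
      (fun i hi => by have := hA i hi; rw [pow_succ] at this; omega) hρ hp hsp τ
      (fun i hi W => (hτ i W hi).1) (fun i hi W => (hτ i W hi).2.1)
      (fun i hi W => (hτ i W hi).2.2)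
    set p₂ := 1 - (1 - 16 * ρ) ^ m with hp₂
    have h16 : 0 ≤ 1 - 16 * ρ := by linarith
    have h16' : 1 - 16 * ρ ≤ 1 := by linarith
    have hp₂0 : 0 ≤ p₂ := by
      have := pow_le_one₀ (n := m) h16 h16'
      rw [hp₂]; linarith
    have hp₂1 : p₂ ≤ 1 := by
      have := pow_nonneg h16 m
      rw [hp₂]; linarith
    have e : 1 - (1 - 16 * ρ) ^ (m + 1) = 1 - (1 - 16 * ρ) * (1 - p₂) := by
      rw [hp₂]; ring
    rw [e, ← sum_PP_union]
    set W0 := ∑ i ∈ I, w i with hW0
    have hW00 : 0 ≤ W0 := Finset.sum_nonneg fun i _ => hw i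
    have hstep : ∀ U : Finset X, W0 * ∑ V : Finset X, PP p₂ V *
        (if ∃ i ∈ I, A i ⊆ U ∪ V then 0 else 1)
        ≤ EE m + ∑ i ∈ I.filter (fun i => 2 ^ m ≤ (A (τ i U) \ U).card), w i := by
      intro U
      set I' := I.filter (fun i => ¬ (2 ^ m ≤ (A (τ i U) \ U).card)) with hI'
      have hI'I : I' ⊆ I := filter_subset _ _
      have h1 := ih I' (fun i => A (τ i U) \ U)
        (by
          intro i hi
          rw [hI', mem_filter] at hi
          exact not_le.1 hi.2)
        (by
          intro T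
          refine le_trans ?_ (hsp T)
          apply Finset.sum_le_sum_of_subset_of_nonneg
          · intro i hi
            rw [mem_filter] at hi ⊢
            refine ⟨hI'I hi.1, ?_⟩
            intro x hx
            have h2 := hi.2 hx
            rw [mem_sdiff] at h2
            have h3 := (hτ i U (hI'I hi.1)).2.1 h2.1
            rw [mem_union] at h3
            exact h3.resolve_left h2.2
          · intro i _ _; exact hw i)
      have hsplit : W0 = ∑ i ∈ I', w i
          + ∑ i ∈ I.filter (fun i => 2 ^ m ≤ (A (τ i U) \ U).card), w i := by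
        rw [hW0, hI', add_comm]
        exact (Finset.sum_filter_add_sum_filter_not I _ _).symm
      set bad := ∑ i ∈ I.filter (fun i => 2 ^ m ≤ (A (τ i U) \ U).card), w i with hbad
      have hbad0 : 0 ≤ bad := Finset.sum_nonneg fun i _ => hw i
      set f1 := ∑ V : Finset X, PP p₂ V * (if ∃ i ∈ I, A i ⊆ U ∪ V then (0:ℝ) else 1) with hf1
      set f2 := ∑ V : Finset X, PP p₂ V * (if ∃ i ∈ I', A (τ i U) \ U ⊆ V then (0:ℝ) else 1)
        with hf2
      have hf12 : f1 ≤ f2 := by
        apply Finset.sum_le_sum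
        intro V _
        apply mul_le_mul_of_nonneg_left _ (PP_nonneg hp₂0 hp₂1 _)
        by_cases h : ∃ i ∈ I', A (τ i U) \ U ⊆ V
        · rw [if_pos h, if_pos]
          obtain ⟨i, hi, hiV⟩ := h
          refine ⟨τ i U, (hτ i U (hI'I hi)).1, ?_⟩
          intro x hx
          by_cases hxU : x ∈ U
          · exact mem_union_left _ hxU
          · exact mem_union_right _ (hiV (mem_sdiff.2 ⟨hx, hxU⟩))
        · rw [if_neg h]
          split_ifs <;> norm_num
      have hf1le : f1 ≤ 1 := by
        calc f1 ≤ ∑ V : Finset X, PP p₂ V := by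
              apply Finset.sum_le_sum
              intro V _
              have := PP_nonneg hp₂0 hp₂1 V
              split_ifs
              · simpa using this
              · simp
          _ = 1 := sum_PP _
      have hI'0 : 0 ≤ ∑ i ∈ I', w i := Finset.sum_nonneg fun i _ => hw i
      rw [hsplit, add_mul]
      have h2 : (∑ i ∈ I', w i) * f1 ≤ EE m := (mul_le_mul_of_nonneg_left hf12 hI'0).trans h1
      have h3 : bad * f1 ≤ bad := by
        calc bad * f1 ≤ bad * 1 := mul_le_mul_of_nonneg_left hf1le hbad0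
          _ = bad := mul_one _
      linarith
    have h16ρ : 0 ≤ 16 * ρ := by positivity
    calc W0 * ∑ U : Finset X, ∑ V : Finset X, PP (16 * ρ) U * (PP p₂ V *
          (if ∃ i ∈ I, A i ⊆ U ∪ V then 0 else 1))
        = ∑ U : Finset X, PP (16 * ρ) U * (W0 * ∑ V : Finset X, PP p₂ V *
          (if ∃ i ∈ I, A i ⊆ U ∪ V then 0 else 1)) := by
          rw [Finset.mul_sum]
          refine Finset.sum_congr rfl fun U _ => ?_
          rw [← Finset.mul_sum]; ring
      _ ≤ ∑ U : Finset X, PP (16 * ρ) U *
          (EE m + ∑ i ∈ I.filter (fun i => 2 ^ m ≤ (A (τ i U) \ U).card), w i) :=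
          Finset.sum_le_sum fun U _ =>
            mul_le_mul_of_nonneg_left (hstep U) (PP_nonneg h16ρ hp _)
      _ = EE m + ∑ U : Finset X, PP (16 * ρ) U *
            ∑ i ∈ I.filter (fun i => 2 ^ m ≤ (A (τ i U) \ U).card), w i := by
          simp_rw [mul_add]
          rw [Finset.sum_add_distrib, ← Finset.sum_mul, sum_PP, one_mul]
      _ ≤ EE m + (1 / 4 : ℝ) ^ (2 ^ m) := by linarith
      _ = EE (m + 1) := by rw [EE]

/-- The spread lemma in the form used below. -/
lemma spread_hit {ι : Type*} [Fintype ι] [Nonempty ι] (A : ι → Finset X) {ρ : ℝ}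
    (hρ : 0 < ρ) (hp : 16 * ρ ≤ 1) {m : ℕ} (hA : ∀ i, (A i).card < 2 ^ m)
    (hsp : ∀ T : Finset X,
      ((univ.filter (fun i => T ⊆ A i)).card : ℝ) / Fintype.card ι ≤ ρ ^ T.card) :
    1 / 2 ≤ ∑ W : Finset X, PP (1 - (1 - 16 * ρ) ^ m) W *
        (if ∃ i, A i ⊆ W then 1 else 0) := by
  classical
  have hcard : (0 : ℝ) < Fintype.card ι := by exact_mod_cast Fintype.card_pos
  have h := multi_round (fun _ : ι => ((Fintype.card ι : ℝ))⁻¹)
    (fun _ => inv_nonneg.2 hcard.le) hρ hp m univ A (fun i _ => hA i)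
    (by
      intro T
      rw [Finset.sum_const, nsmul_eq_mul, ← div_eq_mul_inv]
      exact hsp T)
  have h1 : ∑ i : ι, ((Fintype.card ι : ℝ))⁻¹ = 1 := by
    rw [Finset.sum_const, nsmul_eq_mul, Finset.card_univ, mul_inv_cancel₀ hcard.ne']
  rw [h1, one_mul] at h
  have h2 := EE_le m
  have h3 : (0:ℝ) < (1 / 4) ^ m := by positivity
  have h4 : ∑ W : Finset X, PP (1 - (1 - 16 * ρ) ^ m) W *
        (if ∃ i, A i ⊆ W then 1 else 0)
      + ∑ W : Finset X, PP (1 - (1 - 16 * ρ) ^ m) W *
        (if ∃ i ∈ (univ : Finset ι), A i ⊆ W then 0 else 1) = 1 := by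
    rw [← Finset.sum_add_distrib]
    refine Eq.trans ?_ (sum_PP (X := X) (1 - (1 - 16 * ρ) ^ m))
    refine Finset.sum_congr rfl fun W _ => ?_
    by_cases hW : ∃ i, A i ⊆ W
    · have hW' : ∃ i ∈ (univ : Finset ι), A i ⊆ W := by
        obtain ⟨i, hi⟩ := hW; exact ⟨i, mem_univ _, hi⟩
      rw [if_pos hW, if_pos hW']; ring
    · have hW' : ¬ ∃ i ∈ (univ : Finset ι), A i ⊆ W := by
        rintro ⟨i, _, hi⟩; exact hW ⟨i, hi⟩
      rw [if_neg hW, if_neg hW']; ring
  linarith

end Vale.P064
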