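import Mathlib
import Vale.Agent.P064.Defs
import Vale.Agent.P064.Group
import Vale.Agent.P064.Spread

/-!
# P064, translation to graphs
-/

open Finset Pointwise

namespace Vale.P064

/-- The pairs of distinct elements of `Fin n`. -/
abbrev Edge (n : ℕ) : Type := {e : Sym2 (Fin n) // ¬ e.IsDiag}

lemma card_Edge (n : ℕ) : Fintype.card (Edge n) = n.choose 2 := by
  have h := Sym2.card_subtype_not_diag (α := Fin n)
  rw [Fintype.card_fin] at h
  rw [← h]

instance instActEdge (n : ℕ) : MulAction (Equiv.Perm (Fin n)) (Edge n) where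
  smul g e := ⟨e.1.map g, by
    rw [Sym2.isDiag_map g.injective]; exact e.2⟩
  one_smul e := Subtype.ext (by
    change Sym2.map _ e.1 = e.1
    simp)
  mul_smul g h e := Subtype.ext (by
    change Sym2.map _ e.1 = Sym2.map _ (Sym2.map _ e.1)
    rw [Sym2.map_map]
    rfl)

lemma smul_val {n : ℕ} (g : Equiv.Perm (Fin n)) (e : Edge n) : (g • e).1 = e.1.map g := rfl

/-- The set of edges of a graph on `Fin n`. -/
noncomputable def edg {n : ℕ} (G : SimpleGraph (Fin n)) : Finset (Edge n) := by
  classical exact univ.filter (fun e => e.1 ∈ G.edgeSet)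

lemma mem_edg {n : ℕ} {G : SimpleGraph (Fin n)} {e : Edge n} : e ∈ edg G ↔ e.1 ∈ G.edgeSet := by
  unfold edg; simp

/-- The graph with a given set of edges. -/
def grOf {n : ℕ} (W : Finset (Edge n)) : SimpleGraph (Fin n) :=
  SimpleGraph.fromEdgeSet (Subtype.val '' (W : Set (Edge n)))

lemma edg_grOf {n : ℕ} (W : Finset (Edge n)) : edg (grOf W) = W := by
  ext e
  rw [mem_edg, grOf, SimpleGraph.edgeSet_fromEdgeSet]
  constructor
  · rintro ⟨⟨e', he', h⟩, _⟩
    have : e' = e := Subtype.ext h
    rw [← this]; exact he'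
  · intro h
    exact ⟨⟨e, h, rfl⟩, e.2⟩

lemma grOf_edg {n : ℕ} (G : SimpleGraph (Fin n)) : grOf (edg G) = G := by
  unfold grOf
  have : Subtype.val '' ((edg G : Finset (Edge n)) : Set (Edge n)) = G.edgeSet := by
    ext e
    constructor
    · rintro ⟨e', he', rfl⟩
      exact mem_edg.1 he'
    · intro he
      exact ⟨⟨e, G.not_isDiag_of_mem_edgeSet he⟩, mem_edg.2 he, rfl⟩
  rw [this, SimpleGraph.fromEdgeSet_edgeSet]

lemma card_edg {n : ℕ} (G : SimpleGraph (Fin n)) : (edg G).card = G.edgeSet.ncard := by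
  have : G.edgeSet = Subtype.val '' ((edg G : Finset (Edge n)) : Set (Edge n)) := by
    ext e
    constructor
    · intro he
      exact ⟨⟨e, G.not_isDiag_of_mem_edgeSet he⟩, mem_edg.2 he, rfl⟩
    · rintro ⟨e', he', rfl⟩
      exact mem_edg.1 he'
  rw [this, Set.ncard_image_of_injective _ Subtype.val_injective, Set.ncard_coe_finset]

lemma gnpMean_eq (n : ℕ) (p : ℝ) (f : SimpleGraph (Fin n) → ℝ) :
    gnpMean n p f = ∑ W : Finset (Edge n), PP p W * f (grOf W) := by
  unfold gnpMean
  refine Fintype.sum_bijective edg ?_ _ _ ?_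
  · constructor
    · intro G G' h
      rw [← grOf_edg G, ← grOf_edg G', h]
    · intro W
      exact ⟨grOf W, edg_grOf W⟩
  · intro G
    unfold PP
    rw [grOf_edg, card_edg, card_Edge]

lemma sum_PP_superset {X : Type*} [Fintype X] [DecidableEq X] (p : ℝ) (S : Finset X) :
    ∑ W : Finset X, PP p W * (if S ⊆ W then 1 else 0) = p ^ S.card := by
  have key := Finset.sum_pow_mul_eq_add_pow p (1 - p) (univ \ S)
  rw [add_sub_cancel, one_pow] at key
  have h1 : ∑ W : Finset X, PP p W * (if S ⊆ W then (1 : ℝ) else 0)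
      = ∑ W ∈ univ.filter (fun W : Finset X => S ⊆ W), PP p W := by
    rw [Finset.sum_filter]
    refine Finset.sum_congr rfl fun W _ => ?_
    split_ifs <;> simp
  rw [h1]
  calc ∑ W ∈ univ.filter (fun W : Finset X => S ⊆ W), PP p W
      = ∑ R ∈ (univ \ S).powerset, p ^ S.card *
          (p ^ R.card * (1 - p) ^ ((univ \ S).card - R.card)) := by
        apply Finset.sum_bij' (fun W _ => W \ S) (fun R _ => S ∪ R)
        · intro W _
          rw [mem_powerset]
          exact sdiff_subset_sdiff (subset_univ _) (Subset.refl _)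
        · intro R _
          simp only [mem_filter, mem_univ, true_and]
          exact subset_union_left
        · intro W hW
          simp only [mem_filter, mem_univ, true_and] at hW
          exact union_sdiff_of_subset hW
        · intro R hR
          rw [mem_powerset] at hR
          ext x
          simp only [mem_union, mem_sdiff]
          constructor
          · rintro ⟨h1 | h1, h2⟩
            · exact absurd h1 h2
            · exact h1
          · intro h1
            exact ⟨Or.inr h1, (mem_sdiff.1 (hR h1)).2⟩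
        · intro W hW
          simp only [mem_filter, mem_univ, true_and] at hW
          unfold PP
          have h2 : (W \ S).card = W.card - S.card := Finset.card_sdiff_of_subset hW
          have h3 : (univ \ S).card = Fintype.card X - S.card := by
            rw [Finset.card_sdiff_of_subset (subset_univ _), Finset.card_univ]
          have h4 : S.card ≤ W.card := Finset.card_le_card hW
          have h5 : W.card ≤ Fintype.card X := Finset.card_le_univ _
          rw [h2, h3]
          have e1 : Fintype.card X - W.card = Fintype.card X - S.card - (W.card - S.card) := by omega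
          have e2 : W.card = S.card + (W.card - S.card) := by omega
          rw [← e1]
          conv_lhs => rw [e2, pow_add]
          have e3 : S.card + (W.card - S.card) = W.card := by omega
          rw [e3]
          ring
    _ = p ^ S.card := by rw [← Finset.mul_sum, key, mul_one]

/-- The edges of a subgraph of the complete graph. -/
noncomputable def eds {n : ℕ} (K : (⊤ : SimpleGraph (Fin n)).Subgraph) : Finset (Edge n) := by
  classical exact univ.filter (fun e => e.1 ∈ K.edgeSet)

lemma mem_eds {n : ℕ} {K : (⊤ : SimpleGraph (Fin n)).Subgraph} {e : Edge n} :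
    e ∈ eds K ↔ e.1 ∈ K.edgeSet := by
  unfold eds; simp

/-- The copies of `F` in the complete graph on `Fin n`. -/
noncomputable def cops (n : ℕ) {U : Type*} (F : SimpleGraph U) :
    Finset ((⊤ : SimpleGraph (Fin n)).Subgraph) := by
  classical exact univ.filter (fun K => Nonempty (F ≃g K.coe))

lemma mem_cops {n : ℕ} {U : Type*} {F : SimpleGraph U} {K : (⊤ : SimpleGraph (Fin n)).Subgraph} :
    K ∈ cops n F ↔ Nonempty (F ≃g K.coe) := by
  unfold cops; simp

lemma copyCount_eq {n : ℕ} {U : Type*} (G : SimpleGraph (Fin n)) (F : SimpleGraph U) :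
    G.copyCount F = ((cops n F).filter (fun K => eds K ⊆ edg G)).card := by
  classical
  unfold SimpleGraph.copyCount
  apply Finset.card_bij (fun (K : G.Subgraph) _ =>
    (⟨K.verts, K.Adj, fun h => (K.adj_sub h).ne, fun h => K.edge_vert h, K.symm⟩ :
      (⊤ : SimpleGraph (Fin n)).Subgraph))
  · intro K hK
    simp only [mem_filter, mem_univ, true_and] at hK
    rw [mem_filter, mem_cops]
    refine ⟨hK, ?_⟩
    intro e he
    rw [mem_eds] at he
    rw [mem_edg]
    revert he
    obtain ⟨e, hd⟩ := e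
    induction e using Sym2.ind with
    | _ a b =>
      intro he
      exact K.adj_sub he
  · intro K _ K' _ h
    simp only [SimpleGraph.Subgraph.mk.injEq] at h
    exact SimpleGraph.Subgraph.ext h.1 h.2
  · intro K hK
    rw [mem_filter, mem_cops] at hK
    refine ⟨⟨K.verts, K.Adj, ?_, fun h => K.edge_vert h, K.symm⟩, ?_, ?_⟩
    · intro a b hab
      have hne : a ≠ b := K.adj_sub hab
      have : (⟨s(a, b), by simpa using hne⟩ : Edge n) ∈ eds K := by
        rw [mem_eds]; exact hab
      have := hK.2 this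
      rw [mem_edg] at this
      exact this
    · simp only [mem_filter, mem_univ, true_and]
      exact hK.1
    · rfl

lemma gnpMean_copyCount (n : ℕ) (p : ℝ) {U : Type*} (F : SimpleGraph U) :
    gnpMean n p (fun G => (G.copyCount F : ℝ)) = ∑ K ∈ cops n F, p ^ (eds K).card := by
  classical
  rw [gnpMean_eq]
  have h1 : ∀ W : Finset (Edge n), PP p W * ((grOf W).copyCount F : ℝ)
      = ∑ K ∈ cops n F, PP p W * (if eds K ⊆ W then 1 else 0) := by
    intro W
    rw [copyCount_eq, edg_grOf, Finset.card_filter]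
    push_cast
    rw [Finset.mul_sum]
  simp_rw [h1]
  rw [Finset.sum_comm]
  exact Finset.sum_congr rfl fun K _ => sum_PP_superset p (eds K)

section embed

variable {n : ℕ} {V : Type*} (H : SimpleGraph V) (ι : V ↪ Fin n)

/-- The edge set of the embedded copy of `H`. -/
noncomputable def baseEdges : Finset (Edge n) := edg (H.map ι)

lemma mem_baseEdges {e : Edge n} :
    e ∈ baseEdges H ι ↔ ∃ u v, H.Adj u v ∧ s(ι u, ι v) = e.1 := by
  unfold baseEdges
  rw [mem_edg]
  obtain ⟨e, hd⟩ := e
  induction e using Sym2.ind with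
  | _ a b =>
    rw [SimpleGraph.mem_edgeSet, SimpleGraph.map_adj]
    constructor
    · rintro ⟨u, v, h, h1, h2⟩
      exact ⟨u, v, h, by rw [h1, h2]⟩
    · rintro ⟨u, v, h, h1⟩
      rw [Sym2.eq_iff] at h1
      rcases h1 with ⟨h1, h2⟩ | ⟨h1, h2⟩
      · exact ⟨u, v, h, h1, h2⟩
      · exact ⟨v, u, h.symm, h2, h1⟩

/-- The subgraph of `H` spanned by a set of edges. -/
def subOf (S : Finset (Edge n)) (hS : S ⊆ baseEdges H ι) : H.Subgraph where
  verts := {v | ∃ w, ∃ e ∈ S, e.1 = s(ι v, ι w)}
  Adj := fun u v => ∃ e ∈ S, e.1 = s(ι u, ι v)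
  adj_sub := by
    rintro u v ⟨e, he, h⟩
    obtain ⟨u', v', h1, h2⟩ := (mem_baseEdges H ι).1 (hS he)
    rw [h, Sym2.eq_iff] at h2
    rcases h2 with ⟨h2, h3⟩ | ⟨h2, h3⟩
    · rw [← ι.injective h2, ← ι.injective h3]; exact h1
    · rw [← ι.injective h2, ← ι.injective h3]; exact h1.symm
  edge_vert := by
    rintro u v ⟨e, he, h⟩
    exact ⟨v, e, he, h⟩
  symm := by
    constructor
    rintro u v ⟨e, he, h⟩
    exact ⟨e, he, by rw [h, Sym2.eq_swap]⟩

lemma exists_perm (S : Finset (Edge n)) (hS : S ⊆ baseEdges H ι)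
    {K : (⊤ : SimpleGraph (Fin n)).Subgraph} (hK : K ∈ cops n (subOf H ι S hS).coe) :
    ∃ g : Equiv.Perm (Fin n), g • S = eds K := by
  classical
  rw [mem_cops] at hK
  obtain ⟨φ⟩ := hK
  set F := subOf H ι S hS with hF
  let e0 : {x // x ∈ ι '' F.verts} ≃ {x // x ∈ K.verts} :=
    ((Equiv.Set.image ι F.verts ι.injective).symm).trans φ.toEquiv
  have hg : ∀ v (hv : v ∈ F.verts), e0.extendSubtype (ι v) = (φ ⟨v, hv⟩ : Fin n) := by
    intro v hv
    have hmem : ι v ∈ ι '' F.verts := Set.mem_image_of_mem ι hv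
    have hs : (Equiv.Set.image ι F.verts ι.injective).symm ⟨ι v, hmem⟩ = ⟨v, hv⟩ := by
      rw [Equiv.symm_apply_eq]
      rfl
    rw [Equiv.extendSubtype_apply_of_mem e0 (ι v) hmem]
    change ((φ ((Equiv.Set.image ι F.verts ι.injective).symm ⟨ι v, hmem⟩) : K.verts) : Fin n)
      = _
    rw [hs]
  refine ⟨e0.extendSubtype, ?_⟩
  ext e
  rw [Finset.mem_smul_finset, mem_eds]
  constructor
  · rintro ⟨f, hf, rfl⟩
    obtain ⟨u, v, h1, h2⟩ := (mem_baseEdges H ι).1 (hS hf)
    have hadj : F.Adj u v := ⟨f, hf, h2.symm⟩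
    have hu : u ∈ F.verts := F.edge_vert hadj
    have hv : v ∈ F.verts := F.edge_vert hadj.symm
    rw [smul_val, ← h2, Sym2.map_mk, hg u hu, hg v hv]
    have : F.coe.Adj ⟨u, hu⟩ ⟨v, hv⟩ := hadj
    have h3 := φ.map_rel_iff.2 this
    exact h3
  · intro he
    obtain ⟨e, hd⟩ := e
    revert hd he
    induction e using Sym2.ind with
    | _ a b =>
      intro hd he
      have hab : K.Adj a b := he
      have ha : a ∈ K.verts := K.edge_vert hab
      have hb : b ∈ K.verts := K.edge_vert hab.symm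
      obtain ⟨⟨u, hu⟩, hu'⟩ := φ.surjective ⟨a, ha⟩
      obtain ⟨⟨v, hv⟩, hv'⟩ := φ.surjective ⟨b, hb⟩
      have h3 : K.coe.Adj (φ ⟨u, hu⟩) (φ ⟨v, hv⟩) := by
        rw [hu', hv']; exact hab
      have h4 : F.Adj u v := φ.map_rel_iff.1 h3
      obtain ⟨f, hf, hfe⟩ := h4
      refine ⟨f, hf, ?_⟩
      apply Subtype.ext
      rw [smul_val, hfe, Sym2.map_mk, hg u hu, hg v hv, hu', hv']

lemma eds_injOn (S : Finset (Edge n)) (hS : S ⊆ baseEdges H ι) :
    Set.InjOn (eds (n := n)) (cops n (subOf H ι S hS).coe : Set _) := by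
  -- in a copy every vertex has a neighbour
  have hnb : ∀ K ∈ cops n (subOf H ι S hS).coe, ∀ a ∈ K.verts, ∃ b, K.Adj a b := by
    intro K hK a ha
    rw [mem_cops] at hK
    obtain ⟨φ⟩ := hK
    obtain ⟨⟨u, hu⟩, hu'⟩ := φ.surjective ⟨a, ha⟩
    obtain ⟨w, e, he, h⟩ := hu
    have hadj : (subOf H ι S hS).Adj u w := ⟨e, he, h⟩
    have hw : w ∈ (subOf H ι S hS).verts := (subOf H ι S hS).edge_vert hadj.symm
    have h1 : (subOf H ι S hS).coe.Adj ⟨u, ⟨w, e, he, h⟩⟩ ⟨w, hw⟩ := hadj
    have h2 := φ.map_rel_iff.2 h1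
    rw [hu'] at h2
    exact ⟨_, h2⟩
  have hadj : ∀ K K' : (⊤ : SimpleGraph (Fin n)).Subgraph, eds K = eds K' →
      ∀ a b, K.Adj a b → K'.Adj a b := by
    intro K K' h a b hab
    have hne : a ≠ b := K.adj_sub hab
    have h1 : (⟨s(a, b), by simpa using hne⟩ : Edge n) ∈ eds K := by
      rw [mem_eds]; exact hab
    rw [h, mem_eds] at h1
    exact h1
  intro K hK K' hK' h
  have hA : K.Adj = K'.Adj := by
    funext a b
    exact propext ⟨hadj K K' h a b, hadj K' K h.symm a b⟩
  refine SimpleGraph.Subgraph.ext ?_ hA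
  ext a
  constructor
  · intro ha
    obtain ⟨b, hb⟩ := hnb K hK a ha
    exact K'.edge_vert (hadj K K' h a b hb)
  · intro ha
    obtain ⟨b, hb⟩ := hnb K' hK' a ha
    exact K.edge_vert (hadj K' K h.symm a b hb)

/-- The expectation condition makes the embedded copy of `H` sparse. -/
lemma sparse_base {p : ℝ} (hp0 : 0 ≤ p)
    (hF : ∀ F : H.Subgraph, 1 / 2 ≤ gnpMean n p (fun G => (G.copyCount F.coe : ℝ))) :
    Sparse (Equiv.Perm (Fin n)) (2 * p) (baseEdges H ι) := by
  classical
  intro S hS
  rcases S.eq_empty_or_nonempty with rfl | hne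
  · unfold sig
    simp
  have h1 := hF (subOf H ι S hS)
  rw [gnpMean_copyCount] at h1
  set C := cops n (subOf H ι S hS).coe with hC
  have hex : ∀ K, ∃ g : Equiv.Perm (Fin n), K ∈ C → g • S = eds K := by
    intro K
    by_cases hK : K ∈ C
    · obtain ⟨g, hg⟩ := exists_perm H ι S hS hK
      exact ⟨g, fun _ => hg⟩
    · exact ⟨1, fun h => absurd h hK⟩
  choose γ hγ using hex
  have hcard : ∀ K ∈ C, (eds K).card = S.card := by
    intro K hK
    rw [← hγ K hK, Finset.card_smul_finset]
  rw [Finset.sum_congr rfl (fun K hK => by rw [hcard K hK]), Finset.sum_const,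
    nsmul_eq_mul] at h1
  have hprod : C.card * #{g : Equiv.Perm (Fin n) | g • S = S}
      ≤ Fintype.card (Equiv.Perm (Fin n)) := by
    rw [← Finset.card_product, ← Finset.card_univ]
    apply Finset.card_le_card_of_injOn (fun x => γ x.1 * x.2)
    · intro x _
      exact mem_coe.2 (mem_univ _)
    · rintro ⟨K, h⟩ hx ⟨K', h'⟩ hx' heq
      simp only [coe_product, Set.mem_prod, mem_coe, mem_filter, mem_univ, true_and] at hx hx'
      simp only at heq
      have e1 : (γ K * h) • S = eds K := by rw [mul_smul, hx.2, hγ K hx.1]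
      have e2 : (γ K' * h') • S = eds K' := by rw [mul_smul, hx'.2, hγ K' hx'.1]
      have e3 : eds K = eds K' := by rw [← e1, ← e2, heq]
      have e4 : K = K' := eds_injOn H ι S hS (mem_coe.2 hx.1) (mem_coe.2 hx'.1) e3
      subst e4
      have e5 : h = h' := mul_left_cancel heq
      rw [e5]
  have hG := cardG_pos (G := Equiv.Perm (Fin n))
  have hprod' : (C.card : ℝ) * (#{g : Equiv.Perm (Fin n) | g • S = S} : ℝ)
      ≤ Fintype.card (Equiv.Perm (Fin n)) := by exact_mod_cast hprod
  have hsig : (C.card : ℝ) * sig (Equiv.Perm (Fin n)) S ≤ 1 := by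
    unfold sig
    rw [← mul_div_assoc, div_le_one hG]
    exact hprod'
  have hsig0 : 0 ≤ sig (Equiv.Perm (Fin n)) S := by unfold sig; positivity
  have h2 : sig (Equiv.Perm (Fin n)) S ≤ 2 * p ^ S.card := by
    have hpS : 0 ≤ p ^ S.card := pow_nonneg hp0 _
    have h3 : sig (Equiv.Perm (Fin n)) S * (1 / 2)
        ≤ sig (Equiv.Perm (Fin n)) S * ((C.card : ℝ) * p ^ S.card) :=
      mul_le_mul_of_nonneg_left h1 hsig0
    have h4 : sig (Equiv.Perm (Fin n)) S * ((C.card : ℝ) * p ^ S.card) ≤ p ^ S.card := by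
      calc sig (Equiv.Perm (Fin n)) S * ((C.card : ℝ) * p ^ S.card)
          = ((C.card : ℝ) * sig (Equiv.Perm (Fin n)) S) * p ^ S.card := by ring
        _ ≤ 1 * p ^ S.card := mul_le_mul_of_nonneg_right hsig hpS
        _ = p ^ S.card := one_mul _
    linarith
  refine h2.trans ?_
  rw [mul_pow]
  apply mul_le_mul_of_nonneg_right _ (pow_nonneg hp0 _)
  calc (2 : ℝ) = 2 ^ 1 := by norm_num
    _ ≤ 2 ^ S.card := pow_le_pow_right₀ (by norm_num) hne.card_pos

lemma baseEdges_card : (baseEdges H ι).card = H.edgeSet.ncard := by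
  unfold baseEdges
  rw [card_edg, SimpleGraph.edgeSet_map, Set.ncard_image_of_injective _ ι.sym2Map.injective]

lemma contains_of_smul_subset {g : Equiv.Perm (Fin n)} {W : Finset (Edge n)}
    (h : g • baseEdges H ι ⊆ W) : 0 < (grOf W).copyCount H := by
  rw [SimpleGraph.copyCount_pos]
  refine ⟨⟨⟨fun v => g (ι v), ?_⟩, ?_⟩⟩
  · intro u v huv
    have hne : ι u ≠ ι v := fun h => huv.ne (ι.injective h)
    have hd : ¬ (s(ι u, ι v) : Sym2 (Fin n)).IsDiag := by simpa using hne
    have h1 : (⟨s(ι u, ι v), hd⟩ : Edge n) ∈ baseEdges H ι :=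
      (mem_baseEdges H ι).2 ⟨u, v, huv, rfl⟩
    have h2 : g • (⟨s(ι u, ι v), hd⟩ : Edge n) ∈ W := h (Finset.smul_mem_smul_finset h1)
    rw [← edg_grOf W, mem_edg] at h2
    exact h2
  · intro u v huv
    exact ι.injective (g.injective huv)

end embed

end Vale.P064
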