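import Mathlib
import Vale.Agent.P064.Graph

/-!
# P064, main bounds
-/

open Finset Pointwise

namespace Vale.P064

lemma card_supset_smul {n : ℕ} (H₀ T : Finset (Edge n)) :
    ((univ.filter (fun g : Equiv.Perm (Fin n) => T ⊆ g • H₀)).card : ℝ)
      / Fintype.card (Equiv.Perm (Fin n)) = nu (Equiv.Perm (Fin n)) H₀ T := by
  unfold nu
  congr 2
  refine Finset.card_bij' (fun g _ => g⁻¹) (fun g _ => g⁻¹) ?_ ?_ ?_ ?_
  · intro g hg
    simp only [mem_filter, mem_univ, true_and] at hg ⊢
    have := Finset.smul_finset_subset_smul_finset (a := g⁻¹) hg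
    rwa [inv_smul_smul] at this
  · intro g hg
    simp only [mem_filter, mem_univ, true_and] at hg ⊢
    have := Finset.smul_finset_subset_smul_finset (a := g⁻¹) hg
    rwa [inv_smul_smul] at this
  · intro g _; simp
  · intro g _; simp

section embed

variable {n : ℕ} {V : Type*} (H : SimpleGraph V) (ι : V ↪ Fin n)

lemma p_pos_of_cond {p : ℝ} (hp0 : 0 ≤ p)
    (hF : ∀ F : H.Subgraph, 1 / 2 ≤ gnpMean n p (fun G => (G.copyCount F.coe : ℝ)))
    (hne : (baseEdges H ι).Nonempty) : 0 < p := by
  rcases hp0.lt_or_eq with h | h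
  · exact h
  · exfalso
    subst h
    have h1 := sparse_base H ι le_rfl hF (baseEdges H ι) (Subset.refl _)
    rw [mul_zero, zero_pow hne.card_pos.ne'] at h1
    have h2 : 0 < sig (Equiv.Perm (Fin n)) (baseEdges H ι) := by
      unfold sig
      apply div_pos _ cardG_pos
      have : 0 < #{g : Equiv.Perm (Fin n) | g • baseEdges H ι = baseEdges H ι} := by
        apply Finset.card_pos.2
        exact ⟨1, by simp⟩
      exact_mod_cast this
    linarith

lemma pc_le {p : ℝ} (hp0 : 0 ≤ p)
    (hF : ∀ F : H.Subgraph, 1 / 2 ≤ gnpMean n p (fun G => (G.copyCount F.coe : ℝ)))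
    (hne : (baseEdges H ι).Nonempty) :
    pc n H ≤ (Nat.log 2 (baseEdges H ι).card + 1 : ℕ) *
      (16 * (KK * (1 + Real.log (baseEdges H ι).card) * (2 * p))) := by
  classical
  have hp := p_pos_of_cond H ι hp0 hF hne
  set H₀ := baseEdges H ι with hH₀
  have hsp := sparse_base H ι hp0 hF
  have h2p : 0 < 2 * p := by linarith
  set m := Nat.log 2 H₀.card + 1 with hm
  set ρ := KK * (1 + Real.log H₀.card) * (2 * p) with hρ
  have hcard1 : (1 : ℝ) ≤ H₀.card := by exact_mod_cast hne.card_pos
  have hlog : 0 ≤ Real.log H₀.card := Real.log_nonneg hcard1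
  have hK := KK_pos
  have hρ0 : 0 < ρ := by rw [hρ]; exact mul_pos (mul_pos hK (by linarith)) h2p
  have hm1 : (1 : ℝ) ≤ m := by
    have : 1 ≤ m := by omega
    exact_mod_cast this
  have hbdd : BddBelow {p : ℝ | 0 ≤ p ∧ p ≤ 1 ∧
      1 / 2 ≤ gnpMean n p (fun G => if 0 < G.copyCount H then 1 else 0)} :=
    ⟨0, fun x hx => hx.1⟩
  -- the key estimate
  have key : ∀ r : ℝ, 0 ≤ r → r ≤ 1 →
      (1 / 2 ≤ ∑ W : Finset (Edge n), PP r W *
        (if ∃ g : Equiv.Perm (Fin n), g • H₀ ⊆ W then 1 else 0)) → pc n H ≤ r := by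
    intro r hr0 hr1 h
    apply csInf_le hbdd
    refine ⟨hr0, hr1, h.trans ?_⟩
    rw [gnpMean_eq]
    apply Finset.sum_le_sum
    intro W _
    apply mul_le_mul_of_nonneg_left _ (PP_nonneg hr0 hr1 W)
    by_cases hW : ∃ g : Equiv.Perm (Fin n), g • H₀ ⊆ W
    · obtain ⟨g, hg⟩ := hW
      rw [if_pos ⟨g, hg⟩, if_pos (contains_of_smul_subset H ι hg)]
    · rw [if_neg hW]
      split_ifs <;> norm_num
  rcases le_or_gt (16 * ρ) 1 with h16 | h16
  · have hlt : ∀ g : Equiv.Perm (Fin n), (g • H₀).card < 2 ^ m := by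
      intro g
      rw [Finset.card_smul_finset]
      exact Nat.lt_pow_succ_log_self (by norm_num) _
    have h1 := spread_hit (fun g : Equiv.Perm (Fin n) => g • H₀) hρ0 h16 hlt
      (by
        intro T
        rw [card_supset_smul]
        exact nu_le_log h2p hsp hne T)
    have h0 : 0 ≤ 1 - 16 * ρ := by linarith
    have h0' : 1 - 16 * ρ ≤ 1 := by linarith
    have h2 : pc n H ≤ 1 - (1 - 16 * ρ) ^ m := by
      apply key _ _ _ h1
      · have := pow_le_one₀ (n := m) h0 h0'
        linarith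
      · have := pow_nonneg h0 m
        linarith
    have h3 : 1 - m * (16 * ρ) ≤ (1 - 16 * ρ) ^ m := by
      have := one_add_mul_le_pow (a := -(16 * ρ)) (by linarith) m
      have e : 1 + (m : ℝ) * -(16 * ρ) = 1 - m * (16 * ρ) := by ring
      rw [e] at this
      have e2 : 1 + -(16 * ρ) = 1 - 16 * ρ := by ring
      rw [e2] at this
      exact this
    linarith
  · have h1 : pc n H ≤ 1 := by
      apply key 1 zero_le_one le_rfl
      have e : ∀ W : Finset (Edge n), PP (1:ℝ) W *
          (if ∃ g : Equiv.Perm (Fin n), g • H₀ ⊆ W then (1:ℝ) else 0)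
          = PP (1:ℝ) W * (if univ ⊆ W then (1 : ℝ) else 0) := by
        intro W
        by_cases hW : univ ⊆ W
        · rw [if_pos hW, if_pos ⟨1, (subset_univ _).trans hW⟩]
        · have h0 : PP (1:ℝ) W = 0 := by
            unfold PP
            have : W.card < Fintype.card (Edge n) := by
              rw [← Finset.card_univ]
              apply Finset.card_lt_card
              exact ⟨subset_univ _, hW⟩
            rw [sub_self, zero_pow (by omega), mul_zero]
          rw [h0, zero_mul, zero_mul]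
      rw [Finset.sum_congr rfl (fun W _ => e W), sum_PP_superset, one_pow]
      norm_num
    have h2 : 1 ≤ (m : ℝ) * (16 * ρ) := by nlinarith
    linarith

variable [Fintype V]

lemma copyCount_le_sum_nu (F : H.Subgraph) :
    (H.copyCount F.coe : ℝ)
      ≤ ∑ K ∈ cops n F.coe, nu (Equiv.Perm (Fin n)) (baseEdges H ι) (eds K) := by
  classical
  have hG := cardG_pos (G := Equiv.Perm (Fin n))
  have hper : ∀ g : Equiv.Perm (Fin n), H.copyCount F.coe
      ≤ ((cops n F.coe).filter (fun K => eds K ⊆ g • baseEdges H ι)).card := by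
    intro g
    let f : SimpleGraph.Copy H (⊤ : SimpleGraph (Fin n)) :=
      ⟨⟨fun v => g (ι v), fun {a b} hab => by
        intro h
        exact hab.ne (ι.injective (g.injective h))⟩,
        fun a b hab => ι.injective (g.injective hab)⟩
    have hf : ∀ v, f.toHom v = g (ι v) := fun v => rfl
    have hfinj : Function.Injective f.toHom := f.injective
    unfold SimpleGraph.copyCount
    apply Finset.card_le_card_of_injOn (fun F' : H.Subgraph => F'.map f.toHom)
    · intro F' hF'
      simp only [coe_filter, mem_univ, true_and, Set.mem_ofPred_eq] at hF' ⊢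
      rw [mem_cops]
      obtain ⟨φ⟩ := hF'
      refine ⟨⟨(f.isoSubgraphMap F').comp φ⟩, ?_⟩
      intro e he
      rw [mem_eds, SimpleGraph.Subgraph.edgeSet_map] at he
      obtain ⟨e', he', hee⟩ := he
      revert he' hee
      induction e' using Sym2.ind with
      | _ u v =>
        intro he' hee
        have huv : F'.Adj u v := he'
        have hne : ι u ≠ ι v := fun h => huv.ne (ι.injective h)
        have hd : ¬ (s(ι u, ι v) : Sym2 (Fin n)).IsDiag := by simpa using hne
        have h1 : (⟨s(ι u, ι v), hd⟩ : Edge n) ∈ baseEdges H ι :=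
          (mem_baseEdges H ι).2 ⟨u, v, F'.adj_sub huv, rfl⟩
        have h2 : e = g • (⟨s(ι u, ι v), hd⟩ : Edge n) := by
          apply Subtype.ext
          rw [← hee, smul_val]
          rfl
        rw [h2]
        exact Finset.smul_mem_smul_finset h1
    · intro F' _ F'' _ h
      simp only at h
      have hv : ∀ F' F'' : H.Subgraph, F'.map f.toHom = F''.map f.toHom →
          ∀ a ∈ F'.verts, a ∈ F''.verts := by
        intro F' F'' h a ha
        have h1 : f.toHom a ∈ (F'.map f.toHom).verts := ⟨a, ha, rfl⟩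
        rw [h] at h1
        obtain ⟨b, hb, hba⟩ := h1
        rw [← hfinj hba]; exact hb
      have ha : ∀ F' F'' : H.Subgraph, F'.map f.toHom = F''.map f.toHom →
          ∀ a b, F'.Adj a b → F''.Adj a b := by
        intro F' F'' h a b hab
        have h1 : (F'.map f.toHom).Adj (f.toHom a) (f.toHom b) := ⟨a, b, hab, rfl, rfl⟩
        rw [h] at h1
        obtain ⟨c, d, hcd, hc, hd⟩ := h1
        rw [← hfinj hc, ← hfinj hd]; exact hcd
      refine SimpleGraph.Subgraph.ext ?_ ?_
      · ext a
        exact ⟨hv F' F'' h a, hv F'' F' h.symm a⟩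
      · funext a b
        exact propext ⟨ha F' F'' h a b, ha F'' F' h.symm a b⟩
  have h1 : (Fintype.card (Equiv.Perm (Fin n)) : ℝ) * (H.copyCount F.coe : ℝ)
      ≤ ∑ g : Equiv.Perm (Fin n),
        (((cops n F.coe).filter (fun K => eds K ⊆ g • baseEdges H ι)).card : ℝ) := by
    calc (Fintype.card (Equiv.Perm (Fin n)) : ℝ) * (H.copyCount F.coe : ℝ)
        = ∑ g : Equiv.Perm (Fin n), (H.copyCount F.coe : ℝ) := by
          rw [Finset.sum_const, nsmul_eq_mul, Finset.card_univ]
      _ ≤ _ := Finset.sum_le_sum fun g _ => by exact_mod_cast hper g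
  have h2 : ∑ g : Equiv.Perm (Fin n),
        (((cops n F.coe).filter (fun K => eds K ⊆ g • baseEdges H ι)).card : ℝ)
      = Fintype.card (Equiv.Perm (Fin n)) *
        ∑ K ∈ cops n F.coe, nu (Equiv.Perm (Fin n)) (baseEdges H ι) (eds K) := by
    rw [Finset.mul_sum]
    simp_rw [Finset.card_filter]
    push_cast
    rw [Finset.sum_comm]
    refine Finset.sum_congr rfl fun K _ => ?_
    rw [← card_supset_smul, Finset.card_filter]
    push_cast
    field_simp
  rw [h2] at h1
  exact le_of_mul_le_mul_left h1 hG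

lemma pEt_le {p : ℝ} (hp0 : 0 ≤ p)
    (hF : ∀ F : H.Subgraph, 1 / 2 ≤ gnpMean n p (fun G => (G.copyCount F.coe : ℝ)))
    (hne : (baseEdges H ι).Nonempty) :
    pEt n H ≤ KK * (1 + Real.log (baseEdges H ι).card) * (2 * p) := by
  classical
  have hp := p_pos_of_cond H ι hp0 hF hne
  have hsp := sparse_base H ι hp0 hF
  have h2p : 0 < 2 * p := by linarith
  set ρ := KK * (1 + Real.log (baseEdges H ι).card) * (2 * p) with hρ
  have hcard1 : (1 : ℝ) ≤ (baseEdges H ι).card := by exact_mod_cast hne.card_pos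
  have hlog : 0 ≤ Real.log (baseEdges H ι).card := Real.log_nonneg hcard1
  have hK := KK_pos
  have hρ0 : 0 < ρ := by rw [hρ]; exact mul_pos (mul_pos hK (by linarith)) h2p
  have hbdd : BddBelow {p : ℝ | 0 ≤ p ∧ p ≤ 1 ∧ ∀ F : H.Subgraph,
      (H.copyCount F.coe : ℝ) / 2 ≤ gnpMean n p (fun G => (G.copyCount F.coe : ℝ))} :=
    ⟨0, fun x hx => hx.1⟩
  refine le_trans ?_ (min_le_right 1 ρ)
  apply csInf_le hbdd
  refine ⟨le_min zero_le_one hρ0.le, min_le_left _ _, ?_⟩
  intro F
  rw [gnpMean_copyCount]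
  have h1 := copyCount_le_sum_nu H ι F
  have h2 : ∑ K ∈ cops n F.coe, nu (Equiv.Perm (Fin n)) (baseEdges H ι) (eds K)
      ≤ ∑ K ∈ cops n F.coe, (min 1 ρ) ^ (eds K).card := by
    apply Finset.sum_le_sum
    intro K _
    rcases min_cases (1 : ℝ) ρ with ⟨h, _⟩ | ⟨h, _⟩
    · rw [h, one_pow]; exact nu_le_one _ _
    · rw [h]; exact nu_le_log h2p hsp hne _
  have h3 : (0 : ℝ) ≤ H.copyCount F.coe := Nat.cast_nonneg _
  linarith

include ι in
lemma one_mem_pE_set (F : H.Subgraph) :
    1 / 2 ≤ gnpMean n 1 (fun G => (G.copyCount F.coe : ℝ)) := by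
  classical
  rw [gnpMean_copyCount]
  have h1 := copyCount_le_sum_nu H ι F
  have h2 : ∑ K ∈ cops n F.coe, nu (Equiv.Perm (Fin n)) (baseEdges H ι) (eds K)
      ≤ ∑ K ∈ cops n F.coe, (1 : ℝ) ^ (eds K).card := by
    apply Finset.sum_le_sum
    intro K _
    rw [one_pow]; exact nu_le_one _ _
  have h3 : (1 : ℝ) ≤ H.copyCount F.coe := by
    have : 0 < H.copyCount F.coe := by
      rw [SimpleGraph.copyCount_pos]
      exact ⟨⟨F.hom, F.hom_injective⟩⟩
    exact_mod_cast this
  linarith

end embed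

/-- The main bounds in terms of the number of edges. -/
theorem main_edges {n : ℕ} {V : Type*} [Fintype V] (H : SimpleGraph V)
    (hV : Fintype.card V ≤ n) (hH : H ≠ ⊥) :
    pEt n H ≤ 2 * KK * (1 + Real.log H.edgeSet.ncard) * pE n H ∧
    pc n H ≤ 64 * KK * (1 + Real.log H.edgeSet.ncard) ^ 2 * pE n H := by
  classical
  obtain ⟨ι⟩ : Nonempty (V ↪ Fin n) := by
    rw [Function.Embedding.nonempty_iff_card_le, Fintype.card_fin]
    exact hV
  have hne : (baseEdges H ι).Nonempty := by
    obtain ⟨e, he⟩ := SimpleGraph.edgeSet_nonempty.2 hH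
    revert he
    induction e using Sym2.ind with
    | _ u v =>
      intro he
      have huv : H.Adj u v := he
      have hne : ι u ≠ ι v := fun h => huv.ne (ι.injective h)
      have hd : ¬ (s(ι u, ι v) : Sym2 (Fin n)).IsDiag := by simpa using hne
      exact ⟨⟨s(ι u, ι v), hd⟩, (mem_baseEdges H ι).2 ⟨u, v, huv, rfl⟩⟩
  have hcard := baseEdges_card H ι
  have hcard1 : (1 : ℝ) ≤ H.edgeSet.ncard := by
    rw [← hcard]; exact_mod_cast hne.card_pos
  set Lg := 1 + Real.log H.edgeSet.ncard with hLg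
  have hlog0 : 0 ≤ Real.log H.edgeSet.ncard := Real.log_nonneg hcard1
  have hLg1 : 1 ≤ Lg := by linarith
  have hK := KK_pos
  have hSne : {p : ℝ | 0 ≤ p ∧ p ≤ 1 ∧ ∀ F : H.Subgraph,
      1 / 2 ≤ gnpMean n p (fun G => (G.copyCount F.coe : ℝ))}.Nonempty :=
    ⟨1, zero_le_one, le_rfl, fun F => one_mem_pE_set H ι F⟩
  have hm : ((Nat.log 2 (baseEdges H ι).card + 1 : ℕ) : ℝ) ≤ 2 * Lg := by
    have h1 : (Nat.log 2 (baseEdges H ι).card : ℝ) ≤ Real.logb 2 (baseEdges H ι).card := by
      exact_mod_cast Real.natLog_le_logb _ _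
    have h2 : Real.logb 2 (baseEdges H ι).card = Real.log (baseEdges H ι).card / Real.log 2 := rfl
    rw [h2, hcard] at h1
    have h3 : Real.log H.edgeSet.ncard / Real.log 2 ≤ 2 * Real.log H.edgeSet.ncard := by
      rw [div_le_iff₀ (Real.log_pos (by norm_num))]
      have := Real.log_two_gt_d9
      nlinarith
    push_cast
    rw [hcard]
    linarith
  constructor
  · have hc : 0 < 2 * KK * Lg := by positivity
    have h1 : pEt n H / (2 * KK * Lg) ≤ pE n H := by
      apply le_csInf hSne
      intro p hp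
      rw [div_le_iff₀ hc]
      have h2 := pEt_le H ι hp.1 hp.2.2 hne
      rw [hcard] at h2
      calc pEt n H ≤ KK * (1 + Real.log H.edgeSet.ncard) * (2 * p) := h2
        _ = p * (2 * KK * Lg) := by rw [hLg]; ring
    rw [div_le_iff₀ hc] at h1
    linarith
  · have hc : 0 < 64 * KK * Lg ^ 2 := by positivity
    have h1 : pc n H / (64 * KK * Lg ^ 2) ≤ pE n H := by
      apply le_csInf hSne
      intro p hp
      rw [div_le_iff₀ hc]
      have h2 := pc_le H ι hp.1 hp.2.2 hne
      refine h2.trans ?_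
      have hp0 : 0 ≤ p := hp.1
      have h3 : 0 ≤ 16 * (KK * (1 + Real.log (baseEdges H ι).card) * (2 * p)) := by
        rw [hcard]
        rw [← hLg]
        positivity
      calc ((Nat.log 2 (baseEdges H ι).card + 1 : ℕ) : ℝ)
            * (16 * (KK * (1 + Real.log (baseEdges H ι).card) * (2 * p)))
          ≤ 2 * Lg * (16 * (KK * (1 + Real.log (baseEdges H ι).card) * (2 * p))) :=
            mul_le_mul_of_nonneg_right hm h3
        _ = p * (64 * KK * Lg ^ 2) := by rw [hcard, ← hLg]; ring
    rw [div_le_iff₀ hc] at h1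
    linarith

/-- `1 + log e(H) ≤ 4 log n`. -/
lemma log_edges_le {n : ℕ} (hn : 2 ≤ n) {V : Type*} [Fintype V] (H : SimpleGraph V)
    (hV : Fintype.card V ≤ n) : 1 + Real.log H.edgeSet.ncard ≤ 4 * Real.log n := by
  classical
  have hn' : (2 : ℝ) ≤ n := by exact_mod_cast hn
  have hlog2 := Real.log_two_gt_d9
  have hlogn : Real.log 2 ≤ Real.log n := Real.log_le_log (by norm_num) hn'
  have hle : H.edgeSet.ncard ≤ n ^ 2 := by
    obtain ⟨ι⟩ : Nonempty (V ↪ Fin n) := by
      rw [Function.Embedding.nonempty_iff_card_le, Fintype.card_fin]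
      exact hV
    rw [← baseEdges_card H ι]
    calc (baseEdges H ι).card ≤ Fintype.card (Edge n) := Finset.card_le_univ _
      _ = n.choose 2 := card_Edge n
      _ ≤ n ^ 2 := Nat.choose_le_pow n 2
  have h1 : Real.log H.edgeSet.ncard ≤ 2 * Real.log n := by
    rcases Nat.eq_zero_or_pos H.edgeSet.ncard with h0 | h0
    · rw [h0]
      simp only [Nat.cast_zero, Real.log_zero]
      linarith
    · calc Real.log H.edgeSet.ncard ≤ Real.log ((n : ℝ) ^ 2) := by
            apply Real.log_le_log (by exact_mod_cast h0)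
            exact_mod_cast hle
        _ = 2 * Real.log n := by rw [Real.log_pow]; norm_num
  linarith

end Vale.P064
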